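import Vale.Agent.P230.Config

namespace Vale.Agent.P230

open Finset MeasureTheory Metric

variable {n L : ℕ}

/-- The random polytope truncated by the unit ball. -/
def body (ω : Finset (Pool n L)) : Set (E n) :=
  {z | ‖z‖ ≤ 1 ∧ ∀ a ∈ ω, uu a.1 z ≤ lev L a.2}

theorem convex_body (ω : Finset (Pool n L)) : Convex ℝ (body ω) := by
  intro z hz w hw s t hs ht hst
  refine ⟨?_, fun a ha => ?_⟩
  · have := convex_closedBall (0 : E n) 1 (mem_closedBall_zero_iff.2 hz.1)
      (mem_closedBall_zero_iff.2 hw.1) hs ht hst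
    exact mem_closedBall_zero_iff.1 this
  · rw [uu_add, uu_smul, uu_smul]
    have h1 := mul_le_mul_of_nonneg_left (hz.2 a ha) hs
    have h2 := mul_le_mul_of_nonneg_left (hw.2 a ha) ht
    calc _ ≤ s * lev L a.2 + t * lev L a.2 := add_le_add h1 h2
      _ = lev L a.2 := by rw [← add_mul, hst, one_mul]

theorem isClosed_body (ω : Finset (Pool n L)) : IsClosed (body ω) := by
  have : body ω = {z : E n | ‖z‖ ≤ 1} ∩ ⋂ a ∈ ω, {z | uu a.1 z ≤ lev L a.2} := by
    ext z; simp [body]
  rw [this]
  exact (isClosed_le continuous_norm continuous_const).inter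
    (isClosed_biInter fun a _ => isClosed_le (continuous_uu _) continuous_const)

theorem isCompact_body (ω : Finset (Pool n L)) : IsCompact (body ω) :=
  (isCompact_closedBall (0 : E n) 1).of_isClosed_subset (isClosed_body ω)
    fun _ hz => mem_closedBall_zero_iff.2 hz.1

theorem isConvexBody_body (ω : Finset (Pool n L))
    (h : 0 < (volume : Measure (E n)).real (body ω)) : IsConvexBody (body ω) := by
  refine ⟨isCompact_body ω, convex_body ω, ?_⟩
  by_contra hne
  have h1 := (convex_body ω).addHaar_frontier (volume : Measure (E n))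
  rw [(isClosed_body ω).frontier_eq, Set.not_nonempty_iff_eq_empty.1 hne, Set.sdiff_empty] at h1
  simp [measureReal_def, h1] at h

open Classical in
theorem body_volume (hn : 5 ≤ n) (hL : 1 ≤ L) :
    ∑ ω : Finset (Pool n L), wt pp ω *
      (if (volume : Measure (E n)).real (body ω) < vb n / 2 then 1 else 0) ≤ 1 / 2 := by
  let cap : Pool n L → Set (E n) := fun a => {z | ‖z‖ ≤ 1 ∧ lev L a.2 < uu a.1 z}
  have hcapm : ∀ a, MeasurableSet (cap a) := fun a =>
    (isClosed_le continuous_norm continuous_const).measurableSet.inter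
      (isOpen_lt continuous_const (continuous_uu _)).measurableSet
  have hcapb : ∀ a, cap a ⊆ closedBall 0 1 := fun a z hz => mem_closedBall_zero_iff.2 hz.1
  have hcapf : ∀ a, (volume : Measure (E n)) (cap a) ≠ ⊤ := fun a =>
    ((measure_mono (hcapb a)).trans_lt measure_closedBall_lt_top).ne
  have hv := vb_pos n
  have hw := wt_nonneg (fun a => (pp_pos (n := n) (L := L) a).le) (pp_le_one hn hL)
  have h1 : ∀ ω : Finset (Pool n L),
      (if (volume : Measure (E n)).real (body ω) < vb n / 2 then (1 : ℝ) else 0) ≤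
      2 / vb n * ∑ a, if a ∈ ω then (volume : Measure (E n)).real (cap a) else 0 := by
    intro ω
    rw [← sum_filter, filter_mem_eq_inter, univ_inter]
    split_ifs with h
    · have hsub : closedBall (0 : E n) 1 ⊆ body ω ∪ ⋃ a ∈ ω, cap a := by
        intro z hz
        by_cases h2 : ∀ a ∈ ω, uu a.1 z ≤ lev L a.2
        · exact Or.inl ⟨mem_closedBall_zero_iff.1 hz, h2⟩
        · push Not at h2
          obtain ⟨a, ha, h3⟩ := h2
          right
          simp only [Set.mem_iUnion]
          exact ⟨a, ha, mem_closedBall_zero_iff.1 hz, h3⟩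
      have h4 := measureReal_mono (μ := (volume : Measure (E n))) hsub
        (measure_union_ne_top (isCompact_body ω).measure_lt_top.ne
          (measure_biUnion_lt_top ω.finite_toSet fun a _ => (hcapf a).lt_top).ne)
      have h5 := measureReal_union_le (μ := (volume : Measure (E n))) (body ω) (⋃ a ∈ ω, cap a)
      have h6 := measureReal_biUnion_finset_le (μ := (volume : Measure (E n))) ω cap
      rw [vol_closedBall _ zero_le_one, one_pow, one_mul] at h4
      rw [div_mul_eq_mul_div, le_div_iff₀ hv]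
      linarith
    · exact mul_nonneg (by positivity) (sum_nonneg fun _ _ => measureReal_nonneg)
  have h2 : ∑ a : Pool n L, pp a * (volume : Measure (E n)).real (cap a) ≤ vb n / 4 := by
    have hint : ∀ a ∈ (univ : Finset (Pool n L)),
        Integrable ((cap a).indicator (fun _ => pp a)) (volume : Measure (E n)) := fun a _ =>
      (integrable_indicator_iff (hcapm a)).2 (integrableOn_const (hcapf a))
    calc _ = ∫ z, ∑ a : Pool n L, (cap a).indicator (fun _ => pp a) z := by
          rw [integral_finsetSum _ hint]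
          refine sum_congr rfl fun a _ => ?_
          rw [integral_indicator_const _ (hcapm a), smul_eq_mul, mul_comm]
      _ ≤ ∫ z, (closedBall (0 : E n) 1).indicator (fun _ => (1 / 4 : ℝ)) z := by
          refine integral_mono (integrable_finsetSum _ hint)
            ((integrable_indicator_iff measurableSet_closedBall).2
              (integrableOn_const measure_closedBall_lt_top.ne)) fun z => ?_
          by_cases hz : z ∈ closedBall (0 : E n) 1
          · rw [Set.indicator_of_mem hz]
            have h3 := mass_le_of_level (by omega) (univ.filter (fun a => z ∈ cap a)) z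
              (fun a ha => (mem_filter.1 ha).2.2.le)
            have h4 : Real.exp (-(L : ℝ) / 2 + L * ‖z‖ ^ 2 / 2) ≤ 1 := by
              apply Real.exp_le_one_iff.2
              have h5 : ‖z‖ ^ 2 ≤ 1 := pow_le_one₀ (norm_nonneg _) (mem_closedBall_zero_iff.1 hz)
              have h6 : (0 : ℝ) ≤ L := by positivity
              nlinarith
            simp only [Set.indicator]
            rw [← sum_filter]
            unfold mass at h3
            linarith
          · rw [Set.indicator_of_notMem hz]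
            exact (sum_eq_zero fun a _ => Set.indicator_of_notMem (fun h => hz (hcapb a h)) _).le
      _ = vb n / 4 := by
          rw [integral_indicator_const _ measurableSet_closedBall, vol_closedBall _ zero_le_one]
          simp; ring
  calc _ ≤ ∑ ω : Finset (Pool n L), wt pp ω *
        (2 / vb n * ∑ a, if a ∈ ω then (volume : Measure (E n)).real (cap a) else 0) :=
        sum_le_sum fun ω _ => mul_le_mul_of_nonneg_left (h1 ω) (hw ω)
    _ = 2 / vb n * ∑ a : Pool n L, ∑ ω : Finset (Pool n L), wt pp ω *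
        (if a ∈ ω then (volume : Measure (E n)).real (cap a) else 0) := by
        rw [sum_comm, mul_sum]
        refine sum_congr rfl fun ω _ => ?_
        rw [← mul_sum]
        ring
    _ = 2 / vb n * ∑ a : Pool n L, pp a * (volume : Measure (E n)).real (cap a) := by
        congr 1
        refine sum_congr rfl fun a _ => ?_
        rw [sum_wt_mem pp a (fun _ => (volume : Measure (E n)).real (cap a)), ← sum_mul, sum_wt,
          one_mul]
    _ ≤ 2 / vb n * (vb n / 4) := by gcongr
    _ = 1 / 2 := by field_simp; norm_num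

theorem card_small_subsets {α : Type*} [DecidableEq α] (G : Finset α) (N : ℕ) :
    (G.powerset.filter (fun X => X.card ≤ N)).card ≤ (G.card + 1) ^ N := by
  have hsub : G.powerset.filter (fun X => X.card ≤ N) ⊆
      (range (N + 1)).biUnion (fun j => powersetCard j G) := by
    intro X hX
    obtain ⟨h1, h2⟩ := mem_filter.1 hX
    exact mem_biUnion.2 ⟨X.card, mem_range.2 (by omega),
      mem_powersetCard.2 ⟨mem_powerset.1 h1, rfl⟩⟩
  refine (card_le_card hsub).trans (card_biUnion_le.trans ?_)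
  rw [add_pow]
  refine sum_le_sum fun j hj => ?_
  rw [card_powersetCard, one_pow, mul_one]
  have h1 : 0 < N.choose j := Nat.choose_pos (Nat.lt_succ_iff.1 (mem_range.1 hj))
  calc G.card.choose j ≤ G.card ^ j := Nat.choose_le_pow _ _
    _ ≤ G.card ^ j * N.choose j := Nat.le_mul_of_pos_right _ h1

open Classical in
theorem exists_body (hn : 5 ≤ n) (hnL : n ≤ L) {κ η J Θ N d₀ : ℝ} (hκ : 0 ≤ κ)
    (hL : (L : ℝ) = κ * n) (hη : η ≤ 1) (hJ : 0 ≤ J) (hΘ : 0 < Θ) (hd₀ : 0 < d₀)
    (hd₁ : d₀ ≤ 1 / 24) (hN : 0 ≤ N) (G Y : Finset (E n))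
    (hsep : ∀ c ∈ Y, ∀ c' ∈ Y, c ≠ c' → d₀ ≤ ‖c - c'‖) (hcard : (1 / d₀) ^ n ≤ Y.card)
    (hP1 : Θ ^ 2 * Real.exp (12 + κ * J - L * d₀ ^ 2 / 8) ≤ 1) {Δ : ℝ}
    (hΔ : 2 * (Θ * N * (3 * d₀) ^ n * Real.exp ((8 + κ) * Θ) + 2 * Θ * N * (1 / 8) ^ n) +
      2 * Θ ^ 2 * Real.exp (12 + κ * J - L / 4608) ≤ Δ)
    (hP2 : N * Real.log (G.card + 1) + 1 ≤ 1 / (2 * Δ)) :
    ∃ ω : Finset (Pool n L), vb n / 2 ≤ (volume : Measure (E n)).real (body ω) ∧
      ∀ X ⊆ G, (X.card : ℝ) ≤ N → Y.card ≤ 2 * (Y.filter (GoodTest η J Θ X)).card →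
        ∃ y ∈ Y, ∀ x ∈ SS η X y, ∃ a ∈ ω, a ∈ JJ L (y - x) := by
  by_contra hcon
  push Not at hcon
  let 𝒳 := (G.powerset.filter (fun X => X.card ≤ ⌊N⌋₊)).filter
    (fun X => Y.card ≤ 2 * (Y.filter (GoodTest η J Θ X)).card)
  let bad : Finset (E n) → Finset (Pool n L) → ℝ := fun X ω =>
    if ∀ y ∈ Y.filter (GoodTest η J Θ X), ¬ ∀ x ∈ SS η X y, ∃ a ∈ ω, a ∈ JJ L (y - x) then 1 else 0
  have hbad0 : ∀ X ω, 0 ≤ bad X ω := fun X ω => by simp only [bad]; split_ifs <;> norm_num
  have hw := wt_nonneg (fun a => (pp_pos (n := n) (L := L) a).le) (pp_le_one hn (by omega))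
  have h1 : ∀ ω : Finset (Pool n L), (1 : ℝ) ≤
      (if (volume : Measure (E n)).real (body ω) < vb n / 2 then 1 else 0) + ∑ X ∈ 𝒳, bad X ω := by
    intro ω
    split_ifs with h
    · linarith [sum_nonneg (s := 𝒳) fun X _ => hbad0 X ω]
    · obtain ⟨X, hX, hXN, hY, hb⟩ := hcon ω (not_lt.1 h)
      have hmem : X ∈ 𝒳 := mem_filter.2 ⟨mem_filter.2 ⟨mem_powerset.2 hX, Nat.le_floor hXN⟩, hY⟩
      have h2 := single_le_sum (f := fun X => bad X ω) (fun X _ => hbad0 X ω) hmem
      have h3 : bad X ω = 1 := by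
        simp only [bad]
        rw [if_pos]
        intro y hy h4
        obtain ⟨x, hx, h5⟩ := hb y (mem_filter.1 hy).1
        obtain ⟨a, ha, h6⟩ := h4 x hx
        exact h5 a ha h6
      linarith
  have h4 : ∀ X ∈ 𝒳, ∑ ω : Finset (Pool n L), wt pp ω * bad X ω ≤ Real.exp (-(1 / (2 * Δ))) := by
    intro X hX
    obtain ⟨h5, h6⟩ := mem_filter.1 hX
    have h7 : (X.card : ℝ) ≤ N :=
      le_trans (by exact_mod_cast (mem_filter.1 h5).2) (Nat.floor_le hN)
    refine config_bound hn hnL hκ hL hη hJ hΘ hd₀ hd₁ X h7 _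
      (fun c hc c' hc' => hsep c (mem_filter.1 hc).1 c' (mem_filter.1 hc').1)
      (fun y hy => (mem_filter.1 hy).2) (hcard.trans (by exact_mod_cast h6)) hP1 hΔ
  have h8 : (𝒳.card : ℝ) ≤ Real.exp (N * Real.log (G.card + 1)) := by
    have h9 : 𝒳.card ≤ (G.card + 1) ^ ⌊N⌋₊ := (card_filter_le _ _).trans (card_small_subsets G _)
    have h10 : (1 : ℝ) ≤ G.card + 1 := by linarith [Nat.cast_nonneg (α := ℝ) G.card]
    calc (𝒳.card : ℝ) ≤ ((G.card : ℝ) + 1) ^ ⌊N⌋₊ := by exact_mod_cast h9
      _ = Real.exp (⌊N⌋₊ * Real.log (G.card + 1)) := by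
          rw [Real.exp_nat_mul, Real.exp_log (by linarith)]
      _ ≤ _ := Real.exp_le_exp.2
          (mul_le_mul_of_nonneg_right (Nat.floor_le hN) (Real.log_nonneg h10))
  have h11 : (1 : ℝ) ≤ 1 / 2 + Real.exp (-1) := by
    calc (1 : ℝ) = ∑ ω : Finset (Pool n L), wt pp ω * 1 := by simp [sum_wt]
      _ ≤ ∑ ω : Finset (Pool n L), wt pp ω *
          ((if (volume : Measure (E n)).real (body ω) < vb n / 2 then 1 else 0) +
            ∑ X ∈ 𝒳, bad X ω) := sum_le_sum fun ω _ => mul_le_mul_of_nonneg_left (h1 ω) (hw ω)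
      _ = ∑ ω : Finset (Pool n L), wt pp ω *
          (if (volume : Measure (E n)).real (body ω) < vb n / 2 then 1 else 0) +
            ∑ X ∈ 𝒳, ∑ ω : Finset (Pool n L), wt pp ω * bad X ω := by
          simp_rw [mul_add, mul_sum]
          rw [sum_add_distrib, sum_comm (s := 𝒳)]
      _ ≤ 1 / 2 + ∑ X ∈ 𝒳, Real.exp (-(1 / (2 * Δ))) :=
          add_le_add (body_volume hn (by omega)) (sum_le_sum h4)
      _ = 1 / 2 + 𝒳.card * Real.exp (-(1 / (2 * Δ))) := by rw [sum_const, nsmul_eq_mul]
      _ ≤ 1 / 2 + Real.exp (N * Real.log (G.card + 1)) * Real.exp (-(1 / (2 * Δ))) := by gcongr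
      _ ≤ _ := by
          rw [← Real.exp_add]
          gcongr
          linarith
  have h12 : Real.exp (-1) < 1 / 2 := by
    rw [Real.exp_neg, ← one_div]
    apply one_div_lt_one_div_of_lt (by norm_num)
    linarith [Real.add_one_lt_exp (x := 1) one_ne_zero]
  linarith

end Vale.Agent.P230
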