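import Vale.Agent.P230.Nets

namespace Vale.Agent.P230

open Finset

variable {n L : ℕ}

open Classical in
/-- Centers relevant for a test point. -/
noncomputable def SS (η : ℝ) (X : Finset (E n)) (y : E n) : Finset (E n) :=
  X.filter (fun x => ‖y - x‖ ≤ 1 + η)

/-- A good test point for a configuration. -/
def GoodTest (η J Θ : ℝ) (X : Finset (E n)) (y : E n) : Prop :=
  (∀ x ∈ SS η X y, n * (1 - ‖y - x‖) ≤ J) ∧
    ∑ x ∈ SS η X y, (1 + max 0 (n * (1 - ‖y - x‖))) ≤ Θ

theorem depth_le {κ : ℝ} (hκ : 0 ≤ κ) (hL : (L : ℝ) = κ * n) (z : E n) :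
    L * (1 - ‖z‖ ^ 2) / 2 ≤ κ * max 0 (n * (1 - ‖z‖)) := by
  have hn : (0 : ℝ) ≤ n := by positivity
  have hz := norm_nonneg z
  rw [hL]
  rcases le_total ‖z‖ 1 with h | h
  · have h1 : (1 - ‖z‖ ^ 2) / 2 ≤ 1 - ‖z‖ := by nlinarith
    calc κ * n * (1 - ‖z‖ ^ 2) / 2 = κ * (n * ((1 - ‖z‖ ^ 2) / 2)) := by ring
      _ ≤ κ * (n * (1 - ‖z‖)) := by gcongr
      _ ≤ _ := mul_le_mul_of_nonneg_left (le_max_right _ _) hκ
  · have h1 : 1 - ‖z‖ ^ 2 ≤ 0 := by nlinarith
    have h2 : κ * n * (1 - ‖z‖ ^ 2) / 2 ≤ 0 := by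
      have := mul_nonpos_of_nonneg_of_nonpos (mul_nonneg hκ hn) h1
      linarith
    exact h2.trans (mul_nonneg hκ (le_max_left _ _))

theorem card_SS_le {η J Θ : ℝ} {X : Finset (E n)} {y : E n} (h : GoodTest η J Θ X y) :
    ((SS η X y).card : ℝ) ≤ Θ := by
  refine le_trans ?_ h.2
  calc ((SS η X y).card : ℝ) = ∑ x ∈ SS η X y, (1 : ℝ) := by simp
    _ ≤ _ := sum_le_sum fun x _ => by linarith [le_max_left 0 (n * (1 - ‖y - x‖))]

open Classical in
theorem config_bound (hn : 5 ≤ n) (hnL : n ≤ L) {κ η J Θ N d₀ : ℝ} (hκ : 0 ≤ κ)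
    (hL : (L : ℝ) = κ * n) (hη : η ≤ 1) (hJ : 0 ≤ J) (hΘ : 0 < Θ) (hd₀ : 0 < d₀)
    (hd₁ : d₀ ≤ 1 / 24) (X : Finset (E n)) (hX : (X.card : ℝ) ≤ N) (Yg : Finset (E n))
    (hsep : ∀ c ∈ Yg, ∀ c' ∈ Yg, c ≠ c' → d₀ ≤ ‖c - c'‖) (hgood : ∀ y ∈ Yg, GoodTest η J Θ X y)
    (hcard : (1 / d₀) ^ n ≤ 2 * Yg.card)
    (hP1 : Θ ^ 2 * Real.exp (12 + κ * J - L * d₀ ^ 2 / 8) ≤ 1) {Δ : ℝ}
    (hΔ : 2 * (Θ * N * (3 * d₀) ^ n * Real.exp ((8 + κ) * Θ) + 2 * Θ * N * (1 / 8) ^ n) +
      2 * Θ ^ 2 * Real.exp (12 + κ * J - L / 4608) ≤ Δ) :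
    ∑ ω : Finset (Pool n L), wt pp ω *
      (if ∀ y ∈ Yg, ¬ ∀ x ∈ SS η X y, ∃ a ∈ ω, a ∈ JJ L (y - x) then 1 else 0) ≤
      Real.exp (-(1 / (2 * Δ))) := by
  have hN : 0 ≤ N := le_trans (by positivity) hX
  have hL2 : 2 ≤ L := by omega
  have hYpos : (0 : ℝ) < Yg.card := by
    have : 0 < (1 / d₀) ^ n := by positivity
    linarith
  have hYne : Yg.Nonempty := card_pos.1 (by exact_mod_cast hYpos)
  have : Nonempty Yg := hYne.coe_sort
  let _ : LinearOrder X := LinearOrder.lift' (Fintype.equivFin X) (Fintype.equivFin X).injective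
  let JY : Yg → X → Finset (Pool n L) := fun y x =>
    if ‖(y : E n) - x‖ ≤ 1 + η then JJ L ((y : E n) - (x : E n)) else univ
  let SY : Yg → Finset X := fun y => univ.filter (fun x => ‖(y : E n) - x‖ ≤ 1 + η)
  have hSY : ∀ (y : Yg) (x : X), x ∈ SY y ↔ ‖(y : E n) - x‖ ≤ 1 + η := fun y x => by simp [SY]
  have hSS : ∀ (y : Yg) (x : X), x ∈ SY y → (x : E n) ∈ SS η X y := fun y x hx =>
    mem_filter.2 ⟨x.2, (hSY y x).1 hx⟩
  have hJY : ∀ (y : Yg) (x : X), x ∈ SY y → JY y x = JJ L ((y : E n) - (x : E n)) := fun y x hx =>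
    if_pos ((hSY y x).1 hx)
  have h2 : ∀ (y : Yg) (x : X), x ∈ SY y → ‖(y : E n) - x‖ ≤ 2 := fun y x hx => by
    linarith [(hSY y x).1 hx]
  have hne : ∀ y x, (JY y x).Nonempty := by
    intro y x
    by_cases h : x ∈ SY y
    · rw [hJY y x h]; exact JJ_nonempty hL2 hnL _ (h2 y x h)
    · simp only [JY]
      rw [if_neg (fun h' => h ((hSY y x).2 h'))]
      exact univ_nonempty
  have hsum : ∀ (y : Yg) (f : E n → ℝ), ∑ x ∈ SY y, f x = ∑ x ∈ SS η X y, f x := by
    intro y f
    simp only [SY, SS]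
    rw [sum_filter, sum_filter, sum_coe_sort X (fun x => if ‖(y : E n) - x‖ ≤ 1 + η then f x else 0)]
  have hcardS : ∀ y, ((SY y).card : ℝ) ≤ Θ := by
    intro y
    have := hsum y (fun _ => 1)
    simp only [sum_const, nsmul_eq_mul, mul_one] at this
    rw [this]
    exact card_SS_le (hgood y y.2)
  have hΔ0 : 0 < Δ := lt_of_lt_of_le (by positivity) hΔ
  have hnear : ∀ y y', overlap pp (JY y) (JY y') (SY y) (SY y') ≤ Real.exp ((8 + κ) * Θ) := by
    intro y y'
    refine (overlap_near pp_pos (hne y) (hne y') _ _).trans ?_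
    have hpow : ∀ y, (2 : ℝ) ^ (SY y).card ≤ Real.exp Θ := by
      intro y
      have h6 : (2 : ℝ) ≤ Real.exp 1 := by linarith [Real.add_one_le_exp 1]
      calc (2 : ℝ) ^ (SY y).card ≤ Real.exp 1 ^ (SY y).card := by gcongr
        _ = Real.exp (SY y).card := by rw [← Real.exp_nat_mul, mul_one]
        _ ≤ _ := Real.exp_le_exp.2 (hcardS y)
    have hprod : ∏ x ∈ SY y', max 1 (1 / mass pp (JY y' x)) ≤ Real.exp ((6 + κ) * Θ) := by
      calc _ ≤ ∏ x ∈ SY y', Real.exp ((6 + κ) * (1 + max 0 (n * (1 - ‖(y' : E n) - x‖)))) := by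
            refine prod_le_prod (fun x _ => le_trans zero_le_one (le_max_left _ _)) fun x hx => ?_
            have h3 : 0 ≤ max 0 (n * (1 - ‖(y' : E n) - x‖)) := le_max_left _ _
            refine max_le (Real.one_le_exp (by positivity)) ?_
            rw [hJY y' x hx]
            have h4 := mass_JJ_ge hL2 hnL _ (h2 y' x hx)
            have h5 := depth_le hκ hL ((y' : E n) - (x : E n))
            calc 1 / mass pp (JJ L ((y' : E n) - (x : E n))) ≤
                  1 / Real.exp (-(L * (1 - ‖(y' : E n) - x‖ ^ 2) / 2) - 6) :=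
                  one_div_le_one_div_of_le (Real.exp_pos _) h4
              _ ≤ _ := by
                  rw [one_div, ← Real.exp_neg]
                  apply Real.exp_le_exp.2
                  nlinarith
        _ = Real.exp ((6 + κ) * ∑ x ∈ SY y', (1 + max 0 (n * (1 - ‖(y' : E n) - x‖)))) := by
            rw [mul_sum, Real.exp_sum]
        _ ≤ _ := by
            apply Real.exp_le_exp.2
            apply mul_le_mul_of_nonneg_left _ (by linarith)
            rw [hsum y' (fun x => 1 + max 0 (n * (1 - ‖(y' : E n) - x‖)))]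
            exact (hgood y' y'.2).2
    calc _ ≤ Real.exp Θ * (Real.exp Θ * Real.exp ((6 + κ) * Θ)) := by
          have := prod_nonneg (s := SY y') (f := fun x => max 1 (1 / mass pp (JY y' x)))
            fun x _ => le_trans zero_le_one (le_max_left _ _)
          gcongr
          · exact hpow y
          · exact hpow y'
      _ = _ := by rw [← Real.exp_add, ← Real.exp_add]; ring_nf
  have hfar : ∀ (y y' : Yg) (d : ℝ), d₀ ≤ d →
      (∀ x ∈ SY y, ∀ x' : X, d ≤ ‖(y' : E n) - ((y : E n) - x + x')‖) →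
      overlap pp (JY y) (JY y') (SY y) (SY y') ≤
        2 * (Θ ^ 2 * Real.exp (12 + κ * J - L * d ^ 2 / 8)) := by
    intro y y' d hd hdist
    set e₀ := Real.exp (12 + κ * J - L * d ^ 2 / 8) with he₀
    have he0 : 0 < e₀ := Real.exp_pos _
    have hL0 : (0 : ℝ) ≤ L := by positivity
    have hle1 : Θ ^ 2 * e₀ ≤ 1 := by
      refine le_trans ?_ hP1
      apply mul_le_mul_of_nonneg_left _ (by positivity)
      apply Real.exp_le_exp.2
      have : d₀ ^ 2 ≤ d ^ 2 := by gcongr
      have := mul_le_mul_of_nonneg_left this hL0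
      linarith
    refine (overlap_far pp_pos (hne y) (hne y') _ _).trans ?_
    have h3 : ∏ e ∈ SY y ×ˢ SY y', (1 + mass pp (JY y e.1 ∩ JY y' e.2) /
        (mass pp (JY y e.1) * mass pp (JY y' e.2))) ≤ Real.exp (Θ ^ 2 * e₀) := by
      calc _ ≤ ∏ e ∈ SY y ×ˢ SY y', Real.exp e₀ := by
            refine prod_le_prod (fun e _ => ?_) fun e he => ?_
            · have := mass_nonneg (pp_pos (n := n) (L := L)) (JY y e.1 ∩ JY y' e.2)
              have := mass_nonneg (pp_pos (n := n) (L := L)) (JY y e.1)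
              have := mass_nonneg (pp_pos (n := n) (L := L)) (JY y' e.2)
              positivity
            · obtain ⟨he1, he2⟩ := mem_product.1 he
              refine le_trans ?_ ((add_comm 1 e₀).le.trans (Real.add_one_le_exp e₀))
              rw [hJY y _ he1, hJY y' _ he2, add_le_add_iff_left]
              refine le_trans (le_of_eq ?_)
                ((ratio_le hL2 hnL _ _ (h2 y _ he1) (h2 y' _ he2)).trans ?_)
              · congr
              apply Real.exp_le_exp.2
              have h4 := depth_le hκ hL ((y : E n) - (e.1 : E n))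
              have h5 := depth_le hκ hL ((y' : E n) - (e.2 : E n))
              have h6 : κ * max 0 (n * (1 - ‖(y : E n) - e.1‖)) ≤ κ * J :=
                mul_le_mul_of_nonneg_left (max_le hJ ((hgood y y.2).1 _ (hSS y _ he1))) hκ
              have h7 : κ * max 0 (n * (1 - ‖(y' : E n) - e.2‖)) ≤ κ * J :=
                mul_le_mul_of_nonneg_left (max_le hJ ((hgood y' y'.2).1 _ (hSS y' _ he2))) hκ
              have h8 : d ≤ ‖(y : E n) - e.1 - ((y' : E n) - e.2)‖ := by
                have := hdist e.1 he1 e.2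
                rw [norm_sub_rev] at this
                have e4 : (y : E n) - e.1 - ((y' : E n) - e.2) = (y : E n) - e.1 + e.2 - y' := by
                  abel
                rw [e4]
                exact this
              have h9 : d ^ 2 ≤ ‖(y : E n) - e.1 - ((y' : E n) - e.2)‖ ^ 2 :=
                pow_le_pow_left₀ (by linarith) h8 2
              have := mul_le_mul_of_nonneg_left h9 hL0
              linarith
        _ = Real.exp (((SY y).card * (SY y').card : ℝ) * e₀) := by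
            rw [prod_const, card_product, ← Real.exp_nat_mul]; push_cast; rfl
        _ ≤ _ := by
            apply Real.exp_le_exp.2
            apply mul_le_mul_of_nonneg_right _ he0.le
            rw [sq]
            exact mul_le_mul (hcardS y) (hcardS y') (by positivity) hΘ.le
    have h10 := Real.abs_exp_sub_one_le (x := Θ ^ 2 * e₀) (by
      rw [abs_of_nonneg (by positivity)]; exact hle1)
    rw [abs_of_nonneg (a := Θ ^ 2 * e₀) (by positivity)] at h10
    linarith [le_abs_self (Real.exp (Θ ^ 2 * e₀) - 1)]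
  have hcount : ∀ (y : Yg) (d : ℝ), 0 ≤ d → ((univ.filter (fun y' : Yg => ∃ x ∈ SY y, ∃ x' : X,
      ‖(y' : E n) - ((y : E n) - x + x')‖ ≤ d)).card : ℝ) ≤ Θ * N * (1 + 2 * d / d₀) ^ n := by
    intro y d hd
    have hsub : univ.filter (fun y' : Yg => ∃ x ∈ SY y, ∃ x' : X,
        ‖(y' : E n) - ((y : E n) - x + x')‖ ≤ d) ⊆ (SY y ×ˢ (univ : Finset X)).biUnion
        (fun e => univ.filter (fun y' : Yg => ‖(y' : E n) - ((y : E n) - e.1 + e.2)‖ ≤ d)) := by
      intro y' hy'
      obtain ⟨x, hx, x', h⟩ := (mem_filter.1 hy').2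
      exact mem_biUnion.2 ⟨(x, x'), mem_product.2 ⟨hx, mem_univ _⟩, mem_filter.2 ⟨mem_univ _, h⟩⟩
    have h3 := (card_le_card hsub).trans card_biUnion_le
    have h4 : ∀ w : E n, ((univ.filter (fun y' : Yg => ‖(y' : E n) - w‖ ≤ d)).card : ℝ) ≤
        (1 + 2 * d / d₀) ^ n := by
      intro w
      rw [← card_map (Function.Embedding.subtype _)]
      apply card_le_of_sep _ w hd₀ hd
      · intro c hc
        obtain ⟨y', hy', rfl⟩ := mem_map.1 hc
        exact (mem_filter.1 hy').2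
      · intro c hc c' hc' hcc
        obtain ⟨y', -, rfl⟩ := mem_map.1 hc
        obtain ⟨y'', -, rfl⟩ := mem_map.1 hc'
        exact hsep _ y'.2 _ y''.2 hcc
    calc _ ≤ ((∑ e ∈ SY y ×ˢ (univ : Finset X), (univ.filter
          (fun y' : Yg => ‖(y' : E n) - ((y : E n) - e.1 + e.2)‖ ≤ d)).card : ℕ) : ℝ) := by
          exact_mod_cast h3
      _ ≤ ∑ e ∈ SY y ×ˢ (univ : Finset X), (1 + 2 * d / d₀) ^ n := by
          push_cast
          exact sum_le_sum fun e _ => h4 _
      _ = (SY y).card * X.card * (1 + 2 * d / d₀) ^ n := by simp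
      _ ≤ _ := by
          gcongr
          exact hcardS y
  refine prob_no_witness pp_pos (pp_le_one hn (by omega)) JY hne SY hΔ0 ?_ _ ?_
  · intro y
    let near : ℝ → Yg → Prop := fun d y' => ∃ x ∈ SY y, ∃ x' : X,
      ‖(y' : E n) - ((y : E n) - x + x')‖ ≤ d
    set A1 := Real.exp ((8 + κ) * Θ) with hA1
    set A3 := 2 * Θ ^ 2 * Real.exp (12 + κ * J - L / 4608) with hA3
    have hA10 : 0 ≤ A1 := (Real.exp_pos _).le
    have hA30 : 0 ≤ A3 := by positivity
    have h3 : ∀ y', overlap pp (JY y) (JY y') (SY y) (SY y') ≤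
        (if near d₀ y' then A1 else 0) + (if near (1 / 24) y' then 2 else 0) + A3 := by
      intro y'
      by_cases h4 : near d₀ y'
      · rw [if_pos h4]
        have := hnear y y'
        split_ifs <;> linarith
      · rw [if_neg h4]
        by_cases h5 : near (1 / 24) y'
        · rw [if_pos h5]
          have := hfar y y' d₀ le_rfl (fun x hx x' => by
            by_contra h
            exact h4 ⟨x, hx, x', (not_le.1 h).le⟩)
          linarith
        · rw [if_neg h5]
          have := hfar y y' (1 / 24) hd₁ (fun x hx x' => by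
            by_contra h
            exact h5 ⟨x, hx, x', (not_le.1 h).le⟩)
          have e : (L : ℝ) * (1 / 24) ^ 2 / 8 = L / 4608 := by ring
          rw [e] at this
          linarith
    refine (sum_le_sum fun y' _ => h3 y').trans ?_
    rw [sum_add_distrib, sum_add_distrib, ← sum_filter, ← sum_filter, sum_const, sum_const,
      sum_const, nsmul_eq_mul, nsmul_eq_mul, nsmul_eq_mul, card_univ, Fintype.card_coe]
    have h4 := hcount y d₀ hd₀.le
    have h5 := hcount y (1 / 24) (by norm_num)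
    have e1 : 1 + 2 * d₀ / d₀ = 3 := by field_simp; norm_num
    rw [e1] at h4
    have h6 : (1 + 2 * (1 / 24) / d₀) ^ n ≤ (1 / 8) ^ n * (1 / d₀) ^ n := by
      rw [← mul_pow]
      apply pow_le_pow_left₀ (by positivity)
      have : 1 ≤ (1 / 24) / d₀ := by rw [le_div_iff₀ hd₀]; linarith
      have e2 : 2 * (1 / 24) / d₀ = 2 * ((1 / 24) / d₀) := by ring
      have e3 : 1 / 8 * (1 / d₀) = 3 * ((1 / 24) / d₀) := by ring
      rw [e2, e3]
      linarith
    have h7 : (3 : ℝ) ^ n = (3 * d₀) ^ n * (1 / d₀) ^ n := by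
      rw [← mul_pow]; congr 1; field_simp
    have h8 : Θ * N * 3 ^ n ≤ Θ * N * (3 * d₀) ^ n * (2 * Yg.card) := by
      rw [h7, ← mul_assoc]
      gcongr
    have h9 : Θ * N * (1 + 2 * (1 / 24) / d₀) ^ n ≤ Θ * N * (1 / 8) ^ n * (2 * Yg.card) := by
      calc _ ≤ Θ * N * ((1 / 8) ^ n * (1 / d₀) ^ n) := by gcongr
        _ = Θ * N * (1 / 8) ^ n * (1 / d₀) ^ n := by ring
        _ ≤ _ := by gcongr
    calc _ ≤ Θ * N * (3 * d₀) ^ n * (2 * Yg.card) * A1 +
          Θ * N * (1 / 8) ^ n * (2 * Yg.card) * 2 + Yg.card * A3 := by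
          gcongr
          · exact h4.trans h8
          · exact h5.trans h9
      _ = Yg.card * (2 * (Θ * N * (3 * d₀) ^ n * A1 + 2 * Θ * N * (1 / 8) ^ n) + A3) := by ring
      _ ≤ _ := by gcongr
  · intro ω hω y hy
    apply hω y y.2
    intro x hx
    have hx' : (⟨x, (mem_filter.1 hx).1⟩ : X) ∈ SY y := (hSY y _).2 (mem_filter.1 hx).2
    obtain ⟨a, ha, ha'⟩ := hy _ hx'
    rw [hJY y _ hx'] at ha'
    exact ⟨a, ha, ha'⟩

end Vale.Agent.P230
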