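import Mathlib

set_option linter.unusedSectionVars false

namespace Vale.Agent.P230

open Finset

variable {ι : Type*} [Fintype ι] [DecidableEq ι]

/-- Product weight of a random subset. -/
def wt (p : ι → ℝ) (S : Finset ι) : ℝ := ∏ a, if a ∈ S then p a else 1 - p a

theorem wt_nonneg {p : ι → ℝ} (h0 : ∀ a, 0 ≤ p a) (h1 : ∀ a, p a ≤ 1) (S : Finset ι) :
    0 ≤ wt p S := by
  unfold wt
  refine prod_nonneg fun a _ => ?_
  split_ifs
  · exact h0 a
  · linarith [h1 a]

theorem sum_wt (p : ι → ℝ) : ∑ S, wt p S = 1 := by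
  have h := prod_add p (fun a => 1 - p a) (univ : Finset ι)
  simp only [add_sub_cancel, prod_const_one, powerset_univ] at h
  rw [h]
  refine sum_congr rfl fun S _ => ?_
  unfold wt
  rw [prod_ite]
  congr 1
  · congr 1; ext a; simp
  · congr 1; ext a; simp

theorem sum_split (a : ι) (F : Finset ι → ℝ) :
    ∑ S, F S = ∑ S ∈ (univ.erase a).powerset, (F S + F (insert a S)) := by
  have h := sum_powerset_insert (s := univ.erase a) (a := a) (by simp) F
  rw [insert_erase (mem_univ a), powerset_univ] at h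
  rw [h, sum_add_distrib]

theorem wt_insert (p : ι → ℝ) (a : ι) (S : Finset ι) (ha : a ∉ S) :
    ∃ w : ℝ, wt p S = (1 - p a) * w ∧ wt p (insert a S) = p a * w := by
  refine ⟨∏ b ∈ univ.erase a, if b ∈ S then p b else 1 - p b, ?_, ?_⟩
  · unfold wt
    rw [← mul_prod_erase _ _ (mem_univ a), if_neg ha]
  · unfold wt
    rw [← mul_prod_erase _ _ (mem_univ a), if_pos (mem_insert_self a S)]
    congr 1
    refine prod_congr rfl fun b hb => ?_
    have : b ≠ a := ne_of_mem_erase hb
    simp [mem_insert, this]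

theorem sum_wt_mem (p : ι → ℝ) (a : ι) (g : Finset ι → ℝ) :
    ∑ S, wt p S * (if a ∈ S then g S else 0) = p a * ∑ S, wt p S * g (insert a S) := by
  rw [sum_split a, sum_split a (fun S => wt p S * g (insert a S)), mul_sum]
  refine sum_congr rfl fun S hS => ?_
  have ha : a ∉ S := fun h => by simpa using (mem_powerset.1 hS) h
  obtain ⟨w, h1, h2⟩ := wt_insert p a S ha
  rw [h1, h2, if_neg ha, if_pos (mem_insert_self a S), insert_idem]
  ring

theorem sum_wt_subset (p : ι → ℝ) (W : Finset ι) (g : Finset ι → ℝ) :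
    ∑ S, wt p S * (if W ⊆ S then g S else 0) = (∏ a ∈ W, p a) * ∑ S, wt p S * g (S ∪ W) := by
  induction W using Finset.induction_on generalizing g with
  | empty => simp
  | insert a W ha ih =>
    have h1 : ∀ S : Finset ι, (if insert a W ⊆ S then g S else 0) =
        if W ⊆ S then (if a ∈ S then g S else 0) else 0 := by
      intro S
      by_cases h2 : W ⊆ S <;> by_cases h3 : a ∈ S <;> simp [insert_subset_iff, h2, h3]
    simp_rw [h1]
    rw [ih (fun S => if a ∈ S then g S else 0)]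
    have h4 : ∀ S : Finset ι, (if a ∈ S ∪ W then g (S ∪ W) else 0) =
        if a ∈ S then g (S ∪ W) else 0 := by
      intro S
      simp [mem_union, ha]
    simp_rw [h4]
    rw [sum_wt_mem p a (fun S => g (S ∪ W)), prod_insert ha]
    simp_rw [insert_union, union_insert]
    ring

theorem sum_wt_indicator (p : ι → ℝ) (W : Finset ι) :
    ∑ S, wt p S * (if W ⊆ S then 1 else 0) = ∏ a ∈ W, p a := by
  rw [sum_wt_subset p W (fun _ => 1)]
  simp [sum_wt]

theorem harris_anti {p : ι → ℝ} (h0 : ∀ a, 0 ≤ p a) (h1 : ∀ a, p a ≤ 1)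
    {f g : Finset ι → ℝ} (hf : Antitone f) (hg : Antitone g) (hf1 : ∀ S, f S ≤ 1)
    (hg1 : ∀ S, g S ≤ 1) :
    (∑ S, wt p S * f S) * (∑ S, wt p S * g S) ≤ ∑ S, wt p S * (f S * g S) := by
  have h := fkg (μ := wt p) (f := fun S => 1 - f S) (g := fun S => 1 - g S)
    (fun S => wt_nonneg h0 h1 S) (fun S => by simpa using hf1 S) (fun S => by simpa using hg1 S)
    (fun S T hST => sub_le_sub_left (hf hST) 1) (fun S T hST => sub_le_sub_left (hg hST) 1)
    (fun S T => by
      unfold wt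
      rw [← prod_mul_distrib, ← prod_mul_distrib]
      apply le_of_eq
      refine prod_congr rfl fun a _ => ?_
      by_cases h2 : a ∈ S <;> by_cases h3 : a ∈ T <;> simp [h2, h3, mul_comm])
  have e1 : ∑ S, wt p S * (1 - f S) = 1 - ∑ S, wt p S * f S := by
    simp_rw [mul_sub, mul_one]; rw [sum_sub_distrib, sum_wt]
  have e2 : ∑ S, wt p S * (1 - g S) = 1 - ∑ S, wt p S * g S := by
    simp_rw [mul_sub, mul_one]; rw [sum_sub_distrib, sum_wt]
  have e3 : ∑ S, wt p S * ((1 - f S) * (1 - g S)) =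
      1 - ∑ S, wt p S * f S - ∑ S, wt p S * g S + ∑ S, wt p S * (f S * g S) := by
    have : ∀ S, wt p S * ((1 - f S) * (1 - g S)) =
        wt p S - wt p S * f S - wt p S * g S + wt p S * (f S * g S) := fun S => by ring
    simp_rw [this]
    rw [sum_add_distrib, sum_sub_distrib, sum_sub_distrib, sum_wt]
  rw [e1, e2, e3, sum_wt] at h
  nlinarith

variable {κ : Type*} [Fintype κ]

/-- The weighted count of present witnesses. -/
noncomputable def cnt (c : κ → ℝ) (W : κ → Finset ι) (S : Finset ι) : ℝ :=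
  ∑ i, if W i ⊆ S then c i else 0

theorem cnt_nonneg {c : κ → ℝ} (hc : ∀ i, 0 ≤ c i) (W : κ → Finset ι) (S : Finset ι) :
    0 ≤ cnt c W S :=
  sum_nonneg fun i _ => by split_ifs; exacts [hc i, le_rfl]

theorem cnt_mono {c : κ → ℝ} (hc : ∀ i, 0 ≤ c i) (W : κ → Finset ι) : Monotone (cnt c W) := by
  intro S T hST
  refine sum_le_sum fun i _ => ?_
  by_cases h : W i ⊆ S
  · rw [if_pos h, if_pos (h.trans hST)]
  · rw [if_neg h]; split_ifs; exacts [hc i, le_rfl]

theorem janson_step {p : ι → ℝ} (h0 : ∀ a, 0 < p a) (h1 : ∀ a, p a ≤ 1)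
    {q : κ → ℝ} (hq : ∀ i, 0 ≤ q i) (W : κ → Finset ι) (V : Finset ι) {t : ℝ} (ht : 0 ≤ t) :
    (1 - t * ∑ j, if (W j ∩ V).Nonempty then q j / ∏ a ∈ W j ∩ V, p a else 0) *
      ∑ S, wt p S * Real.exp (-t * cnt (fun i => q i / ∏ a ∈ W i, p a) W S) ≤
    ∑ S, wt p S * Real.exp (-t * cnt (fun i => q i / ∏ a ∈ W i, p a) W (S ∪ V)) := by
  set c : κ → ℝ := fun i => q i / ∏ a ∈ W i, p a with hcdef
  have hP : ∀ U : Finset ι, 0 < ∏ a ∈ U, p a := fun U => prod_pos fun a _ => h0 a
  have hc : ∀ i, 0 ≤ c i := fun i => div_nonneg (hq i) (hP _).le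
  let c1 : κ → ℝ := fun i => if (W i ∩ V).Nonempty then c i else 0
  let c2 : κ → ℝ := fun i => if (W i ∩ V).Nonempty then 0 else c i
  have hc1 : ∀ i, 0 ≤ c1 i := fun i => by simp only [c1]; split_ifs; exacts [hc i, le_rfl]
  have hc2 : ∀ i, 0 ≤ c2 i := fun i => by simp only [c2]; split_ifs; exacts [le_rfl, hc i]
  have hsplit : ∀ S, cnt c W (S ∪ V) = cnt c1 W (S ∪ V) + cnt c2 W S := by
    intro S
    unfold cnt
    rw [← sum_add_distrib]
    refine sum_congr rfl fun i _ => ?_
    by_cases h : (W i ∩ V).Nonempty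
    · simp [c1, c2, h]
    · have h2 : W i ⊆ S ∪ V ↔ W i ⊆ S := by
        constructor
        · intro h3 a ha
          rcases mem_union.1 (h3 ha) with h4 | h4
          · exact h4
          · exact absurd ⟨a, mem_inter.2 ⟨ha, h4⟩⟩ h
        · intro h3
          exact h3.trans subset_union_left
      simp [c1, c2, h, h2]
  have hw := wt_nonneg (fun a => (h0 a).le) h1
  have hH := harris_anti (fun a => (h0 a).le) h1
    (f := fun S => Real.exp (-t * cnt c1 W (S ∪ V))) (g := fun S => Real.exp (-t * cnt c2 W S))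
    (fun S T hST => Real.exp_le_exp.2 (by
      have := cnt_mono hc1 W (union_subset_union_left (t := V) hST)
      nlinarith))
    (fun S T hST => Real.exp_le_exp.2 (by
      have := cnt_mono hc2 W hST
      nlinarith))
    (fun S => Real.exp_le_one_iff.2 (by have := cnt_nonneg hc1 W (S ∪ V); nlinarith))
    (fun S => Real.exp_le_one_iff.2 (by have := cnt_nonneg hc2 W S; nlinarith))
  have hrhs : ∑ S, wt p S * Real.exp (-t * cnt c W (S ∪ V)) =
      ∑ S, wt p S * (Real.exp (-t * cnt c1 W (S ∪ V)) * Real.exp (-t * cnt c2 W S)) := by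
    refine sum_congr rfl fun S _ => ?_
    rw [hsplit, ← Real.exp_add]
    ring_nf
  rw [hrhs]
  refine le_trans ?_ hH
  have hA : ∑ S, wt p S * Real.exp (-t * cnt c W S) ≤
      ∑ S, wt p S * Real.exp (-t * cnt c2 W S) := by
    refine sum_le_sum fun S _ => mul_le_mul_of_nonneg_left (Real.exp_le_exp.2 ?_) (hw S)
    have : cnt c2 W S ≤ cnt c W S := by
      refine sum_le_sum fun i _ => ?_
      simp only [c2]
      split_ifs <;> first | exact le_rfl | exact hc i
    nlinarith
  have hE : ∑ S, wt p S * cnt c1 W (S ∪ V) =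
      ∑ j, if (W j ∩ V).Nonempty then q j / ∏ a ∈ W j ∩ V, p a else 0 := by
    unfold cnt
    simp_rw [mul_sum]
    rw [sum_comm]
    refine sum_congr rfl fun j _ => ?_
    have h2 : ∀ S : Finset ι, wt p S * (if W j ⊆ S ∪ V then c1 j else 0) =
        c1 j * (wt p S * (if W j \ V ⊆ S then 1 else 0)) := by
      intro S
      have : W j ⊆ S ∪ V ↔ W j \ V ⊆ S := by
        constructor
        · intro h a ha
          rcases mem_union.1 (h (mem_sdiff.1 ha).1) with h5 | h5
          · exact h5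
          · exact absurd h5 (mem_sdiff.1 ha).2
        · intro h a ha
          by_cases h5 : a ∈ V
          · exact mem_union_right _ h5
          · exact mem_union_left _ (h (mem_sdiff.2 ⟨ha, h5⟩))
      by_cases h3 : W j \ V ⊆ S <;> simp [this, h3, mul_comm]
    simp_rw [h2]
    rw [← mul_sum, sum_wt_indicator]
    simp only [c1]
    split_ifs with h
    · have h4 : ∏ a ∈ W j, p a = (∏ a ∈ W j \ V, p a) * ∏ a ∈ W j ∩ V, p a := by
        rw [← prod_union (disjoint_sdiff_inter _ _), sdiff_union_inter]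
      simp only [hcdef]
      rw [h4]
      have := (hP (W j \ V)).ne'
      have := (hP (W j ∩ V)).ne'
      field_simp
    · simp
  have hB : (1 - t * ∑ j, if (W j ∩ V).Nonempty then q j / ∏ a ∈ W j ∩ V, p a else 0) ≤
      ∑ S, wt p S * Real.exp (-t * cnt c1 W (S ∪ V)) := by
    rw [← hE, ← sum_wt p, mul_sum, ← sum_sub_distrib]
    refine sum_le_sum fun S _ => ?_
    have := Real.add_one_le_exp (-t * cnt c1 W (S ∪ V))
    have h5 := mul_le_mul_of_nonneg_left this (hw S)
    linarith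
  have hpos1 : 0 ≤ ∑ S, wt p S * Real.exp (-t * cnt c W S) :=
    sum_nonneg fun S _ => mul_nonneg (hw S) (Real.exp_pos _).le
  have hpos2 : 0 ≤ ∑ S, wt p S * Real.exp (-t * cnt c1 W (S ∪ V)) :=
    sum_nonneg fun S _ => mul_nonneg (hw S) (Real.exp_pos _).le
  calc _ ≤ (∑ S, wt p S * Real.exp (-t * cnt c1 W (S ∪ V))) *
        ∑ S, wt p S * Real.exp (-t * cnt c W S) := mul_le_mul_of_nonneg_right hB hpos1
    _ ≤ _ := mul_le_mul_of_nonneg_left hA hpos2

/-- Weighted Janson inequality. -/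
theorem janson {p : ι → ℝ} (h0 : ∀ a, 0 < p a) (h1 : ∀ a, p a ≤ 1)
    {q : κ → ℝ} (hq : ∀ i, 0 ≤ q i) (hq1 : ∑ i, q i = 1) (W : κ → Finset ι) {Δ : ℝ} (hΔ0 : 0 < Δ)
    (hΔ : ∑ i, q i * ∑ j, (if (W j ∩ W i).Nonempty then q j / ∏ a ∈ W j ∩ W i, p a else 0) ≤ Δ)
    (Bad : Finset ι → Prop) [DecidablePred Bad] (hBad : ∀ S, Bad S → ∀ i, q i ≠ 0 → ¬ W i ⊆ S) :
    ∑ S, wt p S * (if Bad S then 1 else 0) ≤ Real.exp (-(1 / (2 * Δ))) := by
  set c : κ → ℝ := fun i => q i / ∏ a ∈ W i, p a with hcdef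
  have hP : ∀ U : Finset ι, 0 < ∏ a ∈ U, p a := fun U => prod_pos fun a _ => h0 a
  have hw := wt_nonneg (fun a => (h0 a).le) h1
  let Ψ : ℝ → ℝ := fun t => ∑ S, wt p S * Real.exp (-t * cnt c W S)
  let Ψ' : ℝ → ℝ := fun t => ∑ S, wt p S * (Real.exp (-t * cnt c W S) * (-cnt c W S))
  have hΨ : ∀ t, HasDerivAt Ψ (Ψ' t) t := by
    intro t
    apply HasDerivAt.fun_sum
    intro S _
    apply HasDerivAt.const_mul
    apply HasDerivAt.exp
    simpa using (hasDerivAt_id t).neg.mul_const (cnt c W S)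
  have hΨpos : ∀ t, 0 ≤ Ψ t := fun t =>
    sum_nonneg fun S _ => mul_nonneg (hw S) (Real.exp_pos _).le
  have hkey : ∀ t, 0 ≤ t → (1 - t * Δ) * Ψ t ≤ -Ψ' t := by
    intro t ht
    have e1 : -Ψ' t = ∑ i, q i * ∑ S, wt p S * Real.exp (-t * cnt c W (S ∪ W i)) := by
      have e2 : ∀ i, q i * ∑ S, wt p S * Real.exp (-t * cnt c W (S ∪ W i)) =
          ∑ S, wt p S * (Real.exp (-t * cnt c W S) * (if W i ⊆ S then c i else 0)) := by
        intro i
        have e3 := sum_wt_subset p (W i) (fun S => Real.exp (-t * cnt c W S))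
        have e4 : q i = c i * ∏ a ∈ W i, p a := by
          simp only [hcdef]; rw [div_mul_cancel₀ _ (hP _).ne']
        rw [e4, mul_assoc, ← e3, mul_sum]
        refine sum_congr rfl fun S _ => ?_
        split_ifs <;> ring
      simp_rw [e2]
      rw [sum_comm]
      simp only [Ψ']
      rw [← sum_neg_distrib]
      refine sum_congr rfl fun S _ => ?_
      rw [← mul_sum, ← mul_sum]
      unfold cnt
      ring
    rw [e1]
    calc (1 - t * Δ) * Ψ t ≤ (1 - t * ∑ i, q i * ∑ j, (if (W j ∩ W i).Nonempty then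
            q j / ∏ a ∈ W j ∩ W i, p a else 0)) * Ψ t := by
          apply mul_le_mul_of_nonneg_right _ (hΨpos t)
          nlinarith
      _ = ∑ i, q i * ((1 - t * ∑ j, (if (W j ∩ W i).Nonempty then
            q j / ∏ a ∈ W j ∩ W i, p a else 0)) * Ψ t) := by
          generalize Ψ t = y
          have : ∀ i, q i * ((1 - t * ∑ j, (if (W j ∩ W i).Nonempty then
            q j / ∏ a ∈ W j ∩ W i, p a else 0)) * y) = q i * y - t * y * (q i *
              ∑ j, (if (W j ∩ W i).Nonempty then q j / ∏ a ∈ W j ∩ W i, p a else 0)) :=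
            fun i => by ring
          simp_rw [this]
          rw [sum_sub_distrib, ← sum_mul, ← mul_sum, hq1]
          ring
      _ ≤ _ := sum_le_sum fun i _ =>
          mul_le_mul_of_nonneg_left (janson_step h0 h1 hq W (W i) ht) (hq i)
  let g : ℝ → ℝ := fun t => Ψ t * Real.exp (t - t ^ 2 * Δ / 2)
  have hg : ∀ t, HasDerivAt g (Ψ' t * Real.exp (t - t ^ 2 * Δ / 2) +
      Ψ t * (Real.exp (t - t ^ 2 * Δ / 2) * (1 - t * Δ))) t := by
    intro t
    apply (hΨ t).mul
    apply HasDerivAt.exp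
    have := (hasDerivAt_id' t).fun_sub (((hasDerivAt_pow 2 t).mul_const Δ).div_const 2)
    refine this.congr_deriv ?_
    simp
    ring
  have hanti : AntitoneOn g (Set.Ici 0) := by
    apply antitoneOn_of_deriv_nonpos (convex_Ici 0)
    · exact fun t _ => (hg t).continuousAt.continuousWithinAt
    · exact fun t _ => (hg t).differentiableAt.differentiableWithinAt
    · intro t ht
      rw [interior_Ici] at ht
      rw [(hg t).deriv]
      have := hkey t (le_of_lt ht)
      have h2 := Real.exp_pos (t - t ^ 2 * Δ / 2)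
      nlinarith
  have hg0 : g 0 = 1 := by simp [g, Ψ, sum_wt]
  have ht0 : (0 : ℝ) ≤ 1 / Δ := by positivity
  have h3 := hanti (Set.mem_Ici.2 le_rfl) (Set.mem_Ici.2 ht0) ht0
  rw [hg0] at h3
  have h4 : (1 / Δ - (1 / Δ) ^ 2 * Δ / 2) = 1 / (2 * Δ) := by field_simp; ring
  simp only [g] at h3
  rw [h4] at h3
  have h5 : Ψ (1 / Δ) ≤ Real.exp (-(1 / (2 * Δ))) := by
    rw [Real.exp_neg, ← one_div, le_div_iff₀ (Real.exp_pos _)]
    exact h3
  refine le_trans ?_ h5
  refine sum_le_sum fun S _ => mul_le_mul_of_nonneg_left ?_ (hw S)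
  split_ifs with hS
  · have : cnt c W S = 0 := by
      unfold cnt
      refine sum_eq_zero fun i _ => ?_
      by_cases hqi : q i = 0
      · simp [hcdef, hqi]
      · rw [if_neg (hBad S hS i hqi)]
    rw [this]
    simp
  · exact (Real.exp_pos _).le

end Vale.Agent.P230
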