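import Vale.Agent.P230.Window

namespace Vale.Agent.P230

open Finset MeasureTheory Metric Filter
open scoped Pointwise ENNReal

variable {n : ℕ}

theorem exists_card_le {X : Set (E n)} (hn : 0 < n) (hX : IsLocallyFiniteSet X) {a : ℝ}
    (ha : 0 < a) (h : upperDensity X < ENNReal.ofReal a) :
    ∃ R : ℝ, 0 < R ∧ ∃ Xf : Finset (E n), (∀ x ∈ X, x ∈ cube n (R + 2) → x ∈ Xf) ∧
      (Xf.card : ℝ) ≤ 2 * a * (2 * R) ^ n := by
  have hnR : (0 : ℝ) < n := by exact_mod_cast hn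
  have h1 := eventually_lt_of_limsup_lt h
  obtain ⟨R', h2, h3⟩ := (h1.and (eventually_ge_atTop (4 * (n : ℝ) + 2))).exists
  have hfin : (X ∩ cube n R').Finite := hX _ (isBounded_cube R')
  refine ⟨R' - 2, by linarith, hfin.toFinset, ?_, ?_⟩
  · intro x hx hx'
    rw [sub_add_cancel] at hx'
    exact hfin.mem_toFinset.2 ⟨hx, hx'⟩
  · have hpos : 0 < (2 * R') ^ n := pow_pos (by linarith) n
    rw [hfin.encard_eq_coe_toFinset_card, ENNReal.div_lt_iff (Or.inl (by simpa using hpos))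
      (Or.inl ENNReal.ofReal_ne_top), ← ENNReal.ofReal_mul ha.le] at h2
    have h4 : (hfin.toFinset.card : ℝ) < a * (2 * R') ^ n := by
      have h5 : ENNReal.ofReal (hfin.toFinset.card : ℝ) < ENNReal.ofReal (a * (2 * R') ^ n) := by
        simpa using h2
      exact (ENNReal.ofReal_lt_ofReal_iff (by positivity)).1 h5
    have h6 : (2 * R') ^ n ≤ 2 * (2 * (R' - 2)) ^ n := by
      have h7 : 2 * R' ≤ (1 + (1 / 2) / n) * (2 * (R' - 2)) := by
        have : 4 ≤ (1 / 2) / n * (2 * (R' - 2)) := by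
          rw [div_mul_eq_mul_div, le_div_iff₀ hnR]
          linarith
        linarith
      have h8 := radius_pow_le hn (t := 1 / 2) (by positivity)
      have h9 : Real.exp (1 / 2) ≤ 2 := by
        have h10 : Real.exp (1 / 2) ^ 2 = Real.exp 1 := by rw [← Real.exp_nat_mul]; norm_num
        have h11 : Real.exp 1 ≤ 3 := (Real.exp_one_lt_d9.trans (by norm_num)).le
        nlinarith [Real.exp_pos (1 / 2)]
      calc (2 * R') ^ n ≤ ((1 + (1 / 2) / n) * (2 * (R' - 2))) ^ n :=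
            pow_le_pow_left₀ (by linarith) h7 n
        _ = (1 + (1 / 2) / n) ^ n * (2 * (R' - 2)) ^ n := mul_pow _ _ _
        _ ≤ 2 * (2 * (R' - 2)) ^ n :=
            mul_le_mul_of_nonneg_right (h8.trans h9) (pow_nonneg (by linarith) n)
    nlinarith

theorem lower_core (hn : 5 ≤ n) {L : ℕ} (hnL : n ≤ L) {κ Θ₀ d₀ : ℝ} (J : ℕ) (hκ : 0 ≤ κ)
    (hL : (L : ℝ) = κ * n) (hJ : J ≤ n) (hΘ₀ : 0 < Θ₀) (hd₀ : 0 < d₀) (hd₁ : d₀ ≤ 1 / 24)
    (hH : 16 * Θ₀ < Real.exp (J - 1))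
    (hP1 : (32 * Θ₀) ^ 2 * Real.exp (12 + κ * J - L * d₀ ^ 2 / 8) ≤ 1)
    (hP2 : 2 * (2 * ((32 * Θ₀) * (8 * Θ₀ * 2 ^ n) * (3 * d₀) ^ n *
      Real.exp ((8 + κ) * (32 * Θ₀)) + 2 * (32 * Θ₀) * (8 * Θ₀ * 2 ^ n) * (1 / 8) ^ n) +
      2 * (32 * Θ₀) ^ 2 * Real.exp (12 + κ * J - L / 4608)) *
      ((8 * Θ₀ * 2 ^ n) * (9 * L ^ 3 * n) + 1) ≤ 1) :
    ∃ K : Set (E n), IsConvexBody K ∧ ENNReal.ofReal (Θ₀ / 4) ≤ thetaT K := by
  classical
  have hnR : (5 : ℝ) ≤ n := by exact_mod_cast hn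
  have hLR : (n : ℝ) ≤ L := by exact_mod_cast hnL
  have hL3 : (n : ℝ) ≤ (L : ℝ) ^ 3 := hLR.trans (le_self_pow₀ (by linarith) (by norm_num))
  set η : ℝ := 1 / (2 * L ^ 3) with hηdef
  have hη0 : 0 < η := by rw [hηdef]; apply one_div_pos.2; linarith
  have hLη : (L : ℝ) ^ 3 * η = 1 / 2 := by
    have : (L : ℝ) ≠ 0 := by linarith
    rw [hηdef]; field_simp
  have hnη : n * η ≤ 1 / 2 := by rw [← hLη]; gcongr
  have hη1 : η ≤ 1 := by nlinarith
  obtain ⟨Y, hY1, hYsep, hYcov⟩ := exists_net (n := n) zero_le_one hd₀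
  obtain ⟨G, hG1, hGsep, hGcov⟩ := exists_net (n := n) zero_le_two hη0
  have hYcard := le_card_of_cover Y zero_le_one hd₀ hYcov
  have hYne : Y.Nonempty := by
    have : (0 : ℝ) < Y.card := lt_of_lt_of_le (by positivity) hYcard
    exact card_pos.1 (by exact_mod_cast this)
  have hGlog : Real.log (G.card + 1) ≤ 9 * L ^ 3 * n := by
    have h1 := card_le_of_sep G 0 hη0 zero_le_two (by simpa using hG1) hGsep
    have h2 : 2 * 2 / η = 8 * L ^ 3 := by rw [hηdef]; field_simp; ring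
    rw [h2] at h1
    have h3 : (1 + 8 * (L : ℝ) ^ 3) ^ n ≤ Real.exp (8 * L ^ 3 * n) := by
      calc _ ≤ Real.exp (8 * L ^ 3) ^ n := by
            apply pow_le_pow_left₀ (by positivity)
            linarith [Real.add_one_le_exp (8 * (L : ℝ) ^ 3)]
        _ = _ := by rw [← Real.exp_nat_mul]; ring_nf
    rw [Real.log_le_iff_le_exp (by positivity)]
    have h4 : Real.exp (9 * L ^ 3 * n) = Real.exp (8 * L ^ 3 * n) * Real.exp (L ^ 3 * n) := by
      rw [← Real.exp_add]; ring_nf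
    have h5 : 2 ≤ Real.exp (L ^ 3 * n) := by
      have := Real.add_one_le_exp ((L : ℝ) ^ 3 * n)
      nlinarith
    have h6 : 1 ≤ Real.exp (8 * L ^ 3 * n) := Real.one_le_exp (by positivity)
    rw [h4]
    nlinarith
  set Δ := 2 * ((32 * Θ₀) * (8 * Θ₀ * 2 ^ n) * (3 * d₀) ^ n *
      Real.exp ((8 + κ) * (32 * Θ₀)) + 2 * (32 * Θ₀) * (8 * Θ₀ * 2 ^ n) * (1 / 8) ^ n) +
      2 * (32 * Θ₀) ^ 2 * Real.exp (12 + κ * J - L / 4608) with hΔdef
  have hΔ0 : 0 < Δ := by positivity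
  obtain ⟨ω, hvol, hω⟩ := exists_body (η := η) (N := 8 * Θ₀ * 2 ^ n) (Δ := Δ) hn hnL hκ hL hη1
    (Nat.cast_nonneg J) (by positivity) hd₀ hd₁ (by positivity) G Y hYsep hYcard hP1 le_rfl (by
      rw [le_div_iff₀ (by positivity)]
      calc _ ≤ ((8 * Θ₀ * 2 ^ n) * (9 * L ^ 3 * n) + 1) * (2 * Δ) := by gcongr
        _ ≤ 1 := by linarith)
  have hv := vb_pos n
  refine ⟨body ω, isConvexBody_body ω (by linarith), ?_⟩
  refine le_iInf fun X => le_iInf fun hX => le_iInf fun hcov => ?_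
  by_contra hcon
  push Not at hcon
  have hK : ENNReal.ofReal (vb n / 2) ≤ volume (body ω) :=
    (ENNReal.ofReal_le_iff_le_toReal (isCompact_body ω).measure_lt_top.ne).2 hvol
  have hρ : upperDensity X < ENNReal.ofReal (Θ₀ / (2 * vb n)) := by
    by_contra h
    push Not at h
    have h1 := mul_le_mul' hK h
    rw [← ENNReal.ofReal_mul (by positivity)] at h1
    have h2 : vb n / 2 * (Θ₀ / (2 * vb n)) = Θ₀ / 4 := by field_simp; norm_num
    rw [h2] at h1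
    exact absurd hcon (not_lt.2 h1)
  obtain ⟨R, hR, Xf, hXf, hXc⟩ := exists_card_le (by omega) hX (by positivity) hρ
  obtain ⟨y₀, hy₀, Xh, hXG, hXN, hXY, hXn⟩ := window (by omega) J hJ hnη hR hΘ₀ Xf (by
    calc _ ≤ 2 * (Θ₀ / (2 * vb n)) * (2 * R) ^ n * vb n := by gcongr
      _ = _ := by field_simp) Y G hYne hGcov hH
  obtain ⟨y, hy, hw⟩ := hω Xh hXG hXN hXY
  have hmem : y₀ + y ∈ body ω + X := by rw [hcov]; trivial
  obtain ⟨k, hk, x, hx, hkx⟩ := Set.mem_add.1 hmem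
  have hx2 : ‖x - y₀‖ ≤ 2 := by
    have : x - y₀ = y - k := by rw [sub_eq_sub_iff_add_eq_add, add_comm x, hkx, add_comm]
    rw [this]
    linarith [norm_sub_le y k, hY1 y hy, hk.1]
  obtain ⟨g, hg, hxg⟩ := hXn x (hXf x hx (mem_cube_of_near hy₀ hx2)) hx2
  have hyg : y - g = k + (x - y₀ - g) := by
    have : y = k + x - y₀ := by rw [hkx]; abel
    rw [this]; abel
  have hgS : g ∈ SS η Xh y := by
    refine mem_filter.2 ⟨hg, ?_⟩
    rw [hyg]
    linarith [norm_add_le k (x - y₀ - g), hk.1]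
  obtain ⟨a, ha, haJ⟩ := hw g hgS
  have h1 := (mem_filter.1 haJ).2
  rw [hyg, uu_add] at h1
  have h2 := hk.2 a ha
  have h3 := (abs_le.1 (abs_uu_le hnL a.1 (x - y₀ - g))).2
  have h4 : (L : ℝ) ^ 3 * ‖x - y₀ - g‖ ≤ L ^ 3 * η := by gcongr
  linarith

theorem lower_param (u : ℝ) (hu : u ^ 8 = n) (hu24 : 24 ≤ u)
    (hbig : 10 ^ 18 * (n : ℝ) ^ 10 ≤ 2 ^ n) :
    ∃ K : Set (E n), IsConvexBody K ∧
      ENNReal.ofReal (1 / 10248192 * n * Real.log n) ≤ thetaT K := by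
  have hu0 : 0 < u := by linarith
  set s := u ^ 2 with hs
  have hs576 : 576 ≤ s := by nlinarith
  have hsn : s ^ 4 = n := by rw [hs, ← hu]; ring
  have hs3 : 576 ^ 3 ≤ s ^ 3 := by gcongr
  have hnR : 576 ^ 3 * s ≤ n := by rw [← hsn]; nlinarith
  have hn5 : 5 ≤ n := by
    have : (5 : ℝ) ≤ n := by nlinarith
    exact_mod_cast this
  have hn1 : (1 : ℝ) < n := by nlinarith
  have hlog : 0 < Real.log n := Real.log_pos hn1
  set Θ₀ : ℝ := 1 / 2562048 * n * Real.log n with hΘ₀def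
  have hΘ₀ : 0 < Θ₀ := by positivity
  have hΘn : Θ₀ ≤ (n : ℝ) ^ 2 := by
    have := Real.log_le_sub_one_of_pos (x := n) (by linarith)
    rw [hΘ₀def]
    nlinarith
  have hJ1 : 9 * s ≤ (⌈9 * s⌉₊ : ℝ) := Nat.le_ceil _
  have hJ2 : (⌈9 * s⌉₊ : ℝ) ≤ 10 * s := by
    have := Nat.ceil_lt_add_one (a := 9 * s) (by linarith)
    linarith
  have hse : s ≤ Real.exp s := by linarith [Real.add_one_le_exp s]
  have hn2 : (n : ℝ) ^ 2 ≤ Real.exp (8 * s) := by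
    calc (n : ℝ) ^ 2 = s ^ 8 := by rw [← hsn]; ring
      _ ≤ Real.exp s ^ 8 := by gcongr
      _ = _ := by rw [← Real.exp_nat_mul]; norm_num
  have hL : ((10000 * n : ℕ) : ℝ) = 10000 * n := by push_cast; ring
  have h := lower_core (L := 10000 * n) (κ := 10000) (Θ₀ := Θ₀) (d₀ := 1 / s) hn5 (by omega)
    ⌈9 * s⌉₊ (by norm_num) hL (by
      have : (⌈9 * s⌉₊ : ℝ) ≤ n := by linarith
      exact_mod_cast this) hΘ₀ (by positivity)
    (one_div_le_one_div_of_le (by norm_num) (by linarith)) ?_ ?_ ?_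
  · have e : Θ₀ / 4 = 1 / 10248192 * n * Real.log n := by rw [hΘ₀def]; ring
    rwa [e] at h
  · have h1 : 16 < Real.exp (s - 1) := by linarith [Real.add_one_le_exp (s - 1)]
    calc 16 * Θ₀ ≤ 16 * Real.exp (8 * s) := by linarith
      _ < Real.exp (s - 1) * Real.exp (8 * s) := by gcongr
      _ ≤ _ := by rw [← Real.exp_add]; apply Real.exp_le_exp.2; linarith
  · have h1 : (32 * Θ₀) ^ 2 ≤ Real.exp (18 * s) := by
      have h2 : 32 * Θ₀ ≤ Real.exp s * Real.exp (8 * s) := by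
        gcongr
        · linarith
        · linarith
      calc _ ≤ (Real.exp s * Real.exp (8 * s)) ^ 2 := by gcongr
        _ = _ := by rw [← Real.exp_add, ← Real.exp_nat_mul]; ring_nf
    have h3 : ((10000 * n : ℕ) : ℝ) * (1 / s) ^ 2 / 8 = 1250 * s ^ 2 := by
      rw [hL, ← hsn]; field_simp; norm_num
    rw [h3]
    calc _ ≤ Real.exp (18 * s) * Real.exp (12 + 10000 * ⌈9 * s⌉₊ - 1250 * s ^ 2) := by gcongr
      _ ≤ 1 := by
          rw [← Real.exp_add]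
          apply Real.exp_le_one_iff.2
          nlinarith
  · rw [hL]
    have h2n : (1 : ℝ) ≤ 2 ^ n := one_le_pow₀ (by norm_num)
    have hM : (8 * Θ₀ * 2 ^ n) * (9 * (10000 * (n : ℝ)) ^ 3 * n) + 1 ≤ 10 ^ 14 * n ^ 6 * 2 ^ n := by
      have h1 : (8 * Θ₀ * 2 ^ n) * (9 * (10000 * (n : ℝ)) ^ 3 * n) ≤
          (8 * n ^ 2 * 2 ^ n) * (9 * (10000 * (n : ℝ)) ^ 3 * n) := by gcongr
      have h2 : (1 : ℝ) ≤ n ^ 6 * 2 ^ n := one_le_mul_of_one_le_of_one_le (one_le_pow₀ hn1.le) h2n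
      nlinarith
    have hA : (3 * (1 / s)) ^ n * Real.exp ((8 + 10000) * (32 * Θ₀)) ≤ (1 / 8) ^ n := by
      have h1 : Real.exp ((8 + 10000) * (32 * Θ₀)) = u ^ n := by
        have h2 : Real.log n = 8 * Real.log u := by rw [← hu, Real.log_pow]; norm_num
        have h3 : (8 + 10000) * (32 * Θ₀) = n * Real.log u := by rw [hΘ₀def, h2]; ring
        rw [h3, Real.exp_nat_mul, Real.exp_log hu0]
      rw [h1, ← mul_pow]
      apply pow_le_pow_left₀ (by positivity)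
      have : 3 * (1 / s) * u = 3 / u := by rw [hs]; field_simp
      rw [this, div_le_iff₀ hu0]
      linarith
    have hB : Real.exp (12 + 10000 * (⌈9 * s⌉₊ : ℝ) - 10000 * n / 4608) ≤ (1 / 4) ^ n := by
      have h1 : 12 + 10000 * (⌈9 * s⌉₊ : ℝ) - 10000 * n / 4608 ≤ n * (-2) := by nlinarith
      have h2 : Real.exp (-2) ≤ 1 / 4 := by
        rw [Real.exp_neg, ← one_div]
        apply one_div_le_one_div_of_le (by norm_num)
        have h5 : Real.exp 2 = Real.exp 1 ^ 2 := by rw [← Real.exp_nat_mul]; norm_num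
        have h6 : (2 : ℝ) ≤ Real.exp 1 := by linarith [Real.add_one_le_exp 1]
        nlinarith
      calc _ ≤ Real.exp (n * (-2)) := Real.exp_le_exp.2 h1
        _ = Real.exp (-2) ^ n := Real.exp_nat_mul _ _
        _ ≤ _ := by gcongr
    have hQ : (2 : ℝ) ^ n * (1 / 8) ^ n = (1 / 4) ^ n := by rw [← mul_pow]; norm_num
    have hQ2 : (2 : ℝ) ^ n * (1 / 4) ^ n * 2 ^ n = 1 := by rw [← mul_pow, ← mul_pow]; norm_num
    have hΘ2 : Θ₀ ^ 2 ≤ (n : ℝ) ^ 4 := by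
      calc Θ₀ ^ 2 ≤ ((n : ℝ) ^ 2) ^ 2 := by gcongr
        _ = _ := by ring
    have hq0 : (0 : ℝ) < (1 / 4) ^ n := by positivity
    have hD : 2 * ((32 * Θ₀) * (8 * Θ₀ * 2 ^ n) * (3 * (1 / s)) ^ n *
        Real.exp ((8 + 10000) * (32 * Θ₀)) + 2 * (32 * Θ₀) * (8 * Θ₀ * 2 ^ n) * (1 / 8) ^ n) +
        2 * (32 * Θ₀) ^ 2 * Real.exp (12 + 10000 * (⌈9 * s⌉₊ : ℝ) - 10000 * n / 4608) ≤
        3584 * n ^ 4 * (1 / 4) ^ n := by
      have h1 : (32 * Θ₀) * (8 * Θ₀ * 2 ^ n) * (3 * (1 / s)) ^ n *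
          Real.exp ((8 + 10000) * (32 * Θ₀)) ≤ 256 * Θ₀ ^ 2 * (1 / 4) ^ n := by
        calc _ = 256 * Θ₀ ^ 2 * (2 ^ n * ((3 * (1 / s)) ^ n *
              Real.exp ((8 + 10000) * (32 * Θ₀)))) := by ring
          _ ≤ 256 * Θ₀ ^ 2 * (2 ^ n * (1 / 8) ^ n) := by gcongr
          _ = _ := by rw [hQ]
      have h2 : 2 * (32 * Θ₀) * (8 * Θ₀ * 2 ^ n) * (1 / 8) ^ n = 512 * Θ₀ ^ 2 * (1 / 4) ^ n := by
        rw [← hQ]; ring
      have h3 : 2 * (32 * Θ₀) ^ 2 * Real.exp (12 + 10000 * (⌈9 * s⌉₊ : ℝ) - 10000 * n / 4608) ≤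
          2048 * Θ₀ ^ 2 * (1 / 4) ^ n := by
        calc _ ≤ 2 * (32 * Θ₀) ^ 2 * (1 / 4) ^ n := by gcongr
          _ = _ := by ring
      have h4 : Θ₀ ^ 2 * (1 / 4) ^ n ≤ (n : ℝ) ^ 4 * (1 / 4) ^ n := by gcongr
      linarith
    calc _ ≤ 2 * (3584 * (n : ℝ) ^ 4 * (1 / 4) ^ n) * (10 ^ 14 * n ^ 6 * 2 ^ n) := by gcongr
      _ = 7168 * 10 ^ 14 * n ^ 10 * ((1 / 4) ^ n * 2 ^ n) := by ring
      _ ≤ 10 ^ 18 * n ^ 10 * ((1 / 4) ^ n * 2 ^ n) := by gcongr; norm_num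
      _ ≤ 2 ^ n * ((1 / 4) ^ n * 2 ^ n) := by gcongr
      _ = 1 := by rw [← mul_assoc, hQ2]

theorem lower_eventually : ∀ᶠ n : ℕ in atTop, ∃ K : Set (E n), IsConvexBody K ∧
    ENNReal.ofReal (1 / 10248192 * n * Real.log n) ≤ thetaT K := by
  have h1 : Tendsto (fun n : ℕ => (n : ℝ) ^ 10 / 2 ^ n) atTop (nhds 0) :=
    tendsto_pow_const_div_const_pow_of_one_lt 10 (by norm_num)
  have h2 := h1.eventually (gt_mem_nhds (show (0 : ℝ) < 1 / 10 ^ 18 by positivity))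
  filter_upwards [h2, eventually_ge_atTop (24 ^ 8)] with n hn hn24
  have hn0 : (0 : ℝ) ≤ n := by positivity
  apply lower_param (Real.sqrt (Real.sqrt (Real.sqrt n)))
  · have e : ∀ x : ℝ, x ^ 8 = ((x ^ 2) ^ 2) ^ 2 := fun x => by ring
    rw [e, Real.sq_sqrt (Real.sqrt_nonneg _), Real.sq_sqrt (Real.sqrt_nonneg _), Real.sq_sqrt hn0]
  · apply Real.le_sqrt_of_sq_le
    apply Real.le_sqrt_of_sq_le
    apply Real.le_sqrt_of_sq_le
    have : ((24 ^ 8 : ℕ) : ℝ) ≤ n := by exact_mod_cast hn24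
    push_cast at this
    linarith
  · rw [div_lt_div_iff₀ (by positivity) (by positivity)] at hn
    linarith

end Vale.Agent.P230
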