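import Vale.Agent.P230.Nets

namespace Vale.Agent.P230

open Finset MeasureTheory Metric Filter Module Submodule
open scoped Pointwise ENNReal Topology

variable {n : ℕ} {ι : Type*} [Fintype ι] (b : Basis ι ℝ (E n))

theorem fd_lt_top : (volume : Measure (E n)) (ZSpan.fundamentalDomain b) < ⊤ :=
  (ZSpan.fundamentalDomain_isBounded b).measure_lt_top

theorem fd_pos : 0 < (volume : Measure (E n)).real (ZSpan.fundamentalDomain b) :=
  ENNReal.toReal_pos (ZSpan.measure_fundamentalDomain_ne_zero b) (fd_lt_top b).ne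

theorem card_coset_le (S : Finset (E n)) {R : ℝ} (hR : 0 ≤ R) (hS : ∀ x ∈ S, x ∈ cube n R)
    (hd : ∀ x ∈ S, ∀ x' ∈ S, -x + x' ∈ span ℤ (Set.range b)) :
    S.card * (volume : Measure (E n)).real (ZSpan.fundamentalDomain b) ≤
      (2 * (R + ∑ i, ‖b i‖)) ^ n := by
  set F := ZSpan.fundamentalDomain b with hF
  have hm : ∀ x : E n, MeasurableSet ((fun y => -x + y) ⁻¹' F) := fun x =>
    (ZSpan.fundamentalDomain_measurableSet b).preimage (by fun_prop)
  have hv : ∀ x : E n, (volume : Measure (E n)) ((fun y => -x + y) ⁻¹' F) = volume F := fun x =>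
    measure_preimage_add _ _ _
  have hD : (S : Set (E n)).PairwiseDisjoint (fun x => (fun y => -x + y) ⁻¹' F) := by
    intro x hx x' hx' hne
    rw [Function.onFun, Set.disjoint_left]
    intro y h1 h2
    apply hne
    have h3 : ZSpan.fract b (-x' + y) = ZSpan.fract b (-x + y) := by
      rw [ZSpan.fract_eq_fract]
      have : -(-x' + y) + (-x + y) = -x + x' := by abel
      rw [this]
      exact hd x hx x' hx'
    rw [ZSpan.fract_eq_self.2 h1, ZSpan.fract_eq_self.2 h2] at h3
    exact (neg_injective (add_right_cancel h3)).symm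
  have h1 := measureReal_biUnion_finset (μ := (volume : Measure (E n))) hD
    (fun x _ => hm x) (fun x _ => by rw [hv]; exact (fd_lt_top b).ne)
  have h0 : 0 ≤ R + ∑ i, ‖b i‖ := add_nonneg hR (sum_nonneg fun _ _ => norm_nonneg _)
  have h2 : (⋃ x ∈ S, (fun y => -x + y) ⁻¹' F) ⊆ cube n (R + ∑ i, ‖b i‖) := by
    refine Set.iUnion₂_subset fun x hx y hy => mem_cube_of_near (hS x hx) ?_
    have := ZSpan.norm_fract_le b (-x + y)
    rw [ZSpan.fract_eq_self.2 (show -x + y ∈ ZSpan.fundamentalDomain b from hy),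
      neg_add_eq_sub] at this
    exact this
  have h3 := measureReal_mono (μ := (volume : Measure (E n))) h2
    (by rw [volume_cube h0]; simp)
  rw [h1, measureReal_def (s := cube _ _), volume_cube h0,
    ENNReal.toReal_ofReal (by positivity)] at h3
  simp only [measureReal_def, hv] at h3
  rwa [sum_const, nsmul_eq_mul] at h3

theorem locallyFinite_periodic (A : Finset (E n)) :
    IsLocallyFiniteSet ((A : Set (E n)) + (span ℤ (Set.range b) : Set (E n))) := by
  intro B hB
  refine (A.finite_toSet.biUnion (t := fun a => (fun y => a + y) ''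
    (((fun y => -a + y) '' B) ∩ span ℤ (Set.range b))) fun a _ => Set.Finite.image _
      (ZSpan.setFinite_inter b ?_)).subset ?_
  · exact (isometry_add_left (-a)).lipschitz.isBounded_image hB
  · rintro x ⟨⟨a, ha, l, hl, rfl⟩, hx⟩
    simp only [Set.mem_iUnion]
    exact ⟨a, ha, l, ⟨⟨a + l, hx, by simp⟩, hl⟩, rfl⟩

theorem upperDensity_periodic (A : Finset (E n)) :
    upperDensity ((A : Set (E n)) + (span ℤ (Set.range b) : Set (E n))) ≤
      ENNReal.ofReal (A.card / (volume : Measure (E n)).real (ZSpan.fundamentalDomain b)) := by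
  classical
  set V := (volume : Measure (E n)).real (ZSpan.fundamentalDomain b) with hV
  have hV0 : 0 < V := fd_pos b
  set D := ∑ i, ‖b i‖ with hD
  have hD0 : 0 ≤ D := sum_nonneg fun _ _ => norm_nonneg _
  have ht : Tendsto (fun R : ℝ => ENNReal.ofReal (A.card / V * (1 + D / R) ^ n)) atTop
      (𝓝 (ENNReal.ofReal (A.card / V))) := by
    apply ENNReal.tendsto_ofReal
    have h1 : Tendsto (fun R : ℝ => D / R) atTop (𝓝 0) := tendsto_id.const_div_atTop D
    have := ((h1.const_add 1).pow n).const_mul (A.card / V)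
    simpa using this
  rw [← ht.limsup_eq]
  refine limsup_le_limsup ?_
  filter_upwards [eventually_gt_atTop 0] with R hR
  set X := (A : Set (E n)) + (span ℤ (Set.range b) : Set (E n)) with hX
  have hfin : (X ∩ cube n R).Finite := locallyFinite_periodic b A _ (isBounded_cube R)
  have hpos : 0 < (2 * R) ^ n := by positivity
  have hcard : (hfin.toFinset.card : ℝ) * V ≤ A.card * (2 * (R + D)) ^ n := by
    have hsub : hfin.toFinset ⊆ A.biUnion
        (fun a => hfin.toFinset.filter (fun x => -a + x ∈ span ℤ (Set.range b))) := by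
      intro x hx
      obtain ⟨⟨a, ha, l, hl, rfl⟩, -⟩ := hfin.mem_toFinset.1 hx
      exact mem_biUnion.2 ⟨a, ha, mem_filter.2 ⟨hx, by simpa using hl⟩⟩
    have h1 := (card_le_card hsub).trans card_biUnion_le
    calc (hfin.toFinset.card : ℝ) * V ≤ (∑ a ∈ A,
          ((hfin.toFinset.filter (fun x => -a + x ∈ span ℤ (Set.range b))).card : ℝ)) * V := by
          gcongr
          exact_mod_cast h1
      _ ≤ ∑ a ∈ A, (2 * (R + D)) ^ n := by
          rw [sum_mul]
          refine sum_le_sum fun a _ => card_coset_le b _ hR.le ?_ ?_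
          · intro x hx
            exact (hfin.mem_toFinset.1 (mem_filter.1 hx).1).2
          · intro x hx x' hx'
            have := sub_mem (mem_filter.1 hx').2 (mem_filter.1 hx).2
            have e : -a + x' - (-a + x) = -x + x' := by abel
            rwa [e] at this
      _ = _ := by rw [sum_const, nsmul_eq_mul]
  rw [hfin.encard_eq_coe_toFinset_card]
  have e : ((hfin.toFinset.card : ℕ∞) : ℝ≥0∞) = ENNReal.ofReal (hfin.toFinset.card : ℝ) := by simp
  rw [e, ← ENNReal.ofReal_div_of_pos hpos]
  apply ENNReal.ofReal_le_ofReal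
  have e2 : (2 * (R + D)) ^ n = (1 + D / R) ^ n * (2 * R) ^ n := by
    rw [← mul_pow]; congr 1; field_simp
  rw [div_le_iff₀ hpos, div_mul_eq_mul_div, div_mul_eq_mul_div, le_div_iff₀ hV0, mul_assoc, ← e2]
  exact hcard

theorem thetaT_le_periodic (K : Set (E n)) (A : Finset (E n))
    (h : K + ((A : Set (E n)) + (span ℤ (Set.range b) : Set (E n))) = Set.univ) :
    thetaT K ≤ volume K *
      ENNReal.ofReal (A.card / (volume : Measure (E n)).real (ZSpan.fundamentalDomain b)) := by
  refine le_trans (iInf_le_of_le _ (iInf_le_of_le (locallyFinite_periodic b A)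
    (iInf_le_of_le h le_rfl))) ?_
  gcongr
  exact upperDensity_periodic b A

theorem thetaT_le_thetaL (K : Set (E n)) : thetaT K ≤ thetaL K := by
  refine le_iInf fun Λ => le_iInf fun h1 => le_iInf fun h2 => le_iInf fun h3 => ?_
  let b₀ := Free.chooseBasis ℤ Λ
  have hspan := Basis.ofZLatticeBasis_span ℝ Λ b₀
  have h4 := thetaT_le_periodic (b₀.ofZLatticeBasis ℝ Λ) K {0} (by
    rw [hspan, ← h3]
    simp)
  rw [ZLattice.covolume_eq_measure_fundamentalDomain Λ volume
    (ZLattice.isAddFundamentalDomain b₀ volume)]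
  refine h4.trans (le_of_eq ?_)
  rw [card_singleton, Nat.cast_one, ENNReal.ofReal_div_of_pos (fd_pos _), ENNReal.ofReal_one,
    mul_div_assoc', mul_one]

end Vale.Agent.P230
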