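import Vale.Agent.P230.Lower
import Vale.Agent.P230.Periodic

namespace Vale.Agent.P230

open Filter MeasureTheory
open scoped ENNReal

theorem worst_lower : ∀ᶠ n : ℕ in atTop,
    ENNReal.ofReal (1 / 10248192 * n * Real.log n) ≤ worstThetaT n ∧
    ENNReal.ofReal (1 / 10248192 * n * Real.log n) ≤ worstThetaL n := by
  filter_upwards [lower_eventually] with n hn
  obtain ⟨K, hK, h⟩ := hn
  exact ⟨h.trans (le_iSup₂_of_le K hK le_rfl),
    h.trans ((thetaT_le_thetaL K).trans (le_iSup₂_of_le K hK le_rfl))⟩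

theorem not_linear : ¬ ∃ C : ℝ, ∀ (n : ℕ), 1 ≤ n → ∀ K : Set (EuclideanSpace ℝ (Fin n)),
    IsConvexBody K → thetaT K ≤ ENNReal.ofReal (C * n) := by
  rintro ⟨C, hC⟩
  have hlog : Tendsto (fun k : ℕ => Real.log k) atTop atTop :=
    Real.tendsto_log_atTop.comp tendsto_natCast_atTop_atTop
  obtain ⟨n, ⟨K, hK, h⟩, h1, h2⟩ := (lower_eventually.and ((hlog.eventually_gt_atTop
    (10248192 * |C|)).and (eventually_ge_atTop 1))).exists
  have h3 := h.trans (hC n h2 K hK)
  have hn : (1 : ℝ) ≤ n := by exact_mod_cast h2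
  have h4 : |C| * n < 1 / 10248192 * n * Real.log n := by nlinarith
  have h5 : C * n ≤ |C| * n := by gcongr; exact le_abs_self C
  have h6 : 0 ≤ |C| * n := by positivity
  exact absurd h3 (not_le.2 ((ENNReal.ofReal_lt_ofReal_iff (by linarith)).2 (by linarith)))

end Vale.Agent.P230
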