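import Vale.Agent.P230.Witness

set_option linter.unusedSectionVars false

namespace Vale.Agent.P230

open Finset

/-- Euclidean space. -/
abbrev E (n : ℕ) := EuclideanSpace ℝ (Fin n)

/-- Sign patterns. -/
abbrev Dir (n L : ℕ) := Fin n × Fin (L ^ 3) → Bool

/-- The pool of half-spaces. -/
abbrev Pool (n L : ℕ) := Dir n L × Fin (2 * (2 * L ^ 3 + 1) + 1)

/-- Sign of a boolean. -/
def sgn (b : Bool) : ℝ := if b then 1 else -1

variable {n L : ℕ}

/-- The linear form of a sign pattern. -/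
noncomputable def uu (ε : Dir n L) (z : E n) : ℝ := ∑ ik, sgn (ε ik) * (z ik.1 / L)

/-- The level of a pool element. -/
def lev (L : ℕ) (k : ℕ) : ℝ := (k : ℝ) - (2 * L ^ 3 + 1)

/-- The inclusion probability. -/
noncomputable def pp (a : Pool n L) : ℝ :=
  Real.exp (-(L : ℝ) / 2) / 8 * Real.exp (lev L a.2) / 2 ^ (n * L ^ 3)

theorem uu_add (ε : Dir n L) (z w : E n) : uu ε (z + w) = uu ε z + uu ε w := by
  unfold uu
  rw [← sum_add_distrib]
  refine sum_congr rfl fun ik _ => ?_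
  simp only [PiLp.add_apply]
  ring

theorem uu_smul (ε : Dir n L) (c : ℝ) (z : E n) : uu ε (c • z) = c * uu ε z := by
  unfold uu
  rw [mul_sum]
  refine sum_congr rfl fun ik _ => ?_
  simp only [PiLp.smul_apply, smul_eq_mul]
  ring

theorem uu_sub (ε : Dir n L) (z w : E n) : uu ε (z - w) = uu ε z - uu ε w := by
  rw [sub_eq_add_neg, uu_add, ← neg_one_smul ℝ w, uu_smul]
  ring

theorem continuous_uu (ε : Dir n L) : Continuous (uu ε) := by
  unfold uu
  fun_prop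

theorem abs_uu_le (hL : n ≤ L) (ε : Dir n L) (z : E n) : |uu ε z| ≤ (L : ℝ) ^ 3 * ‖z‖ := by
  rcases Nat.eq_zero_or_pos L with h0 | h0
  · subst h0
    simp [uu]
  have hLR : (0 : ℝ) < L := by exact_mod_cast h0
  unfold uu
  calc _ ≤ ∑ ik : Fin n × Fin (L ^ 3), |sgn (ε ik) * (z ik.1 / L)| := abs_sum_le_sum_abs _ _
    _ ≤ ∑ _ik : Fin n × Fin (L ^ 3), ‖z‖ / L := by
        refine sum_le_sum fun ik _ => ?_
        have h1 : |sgn (ε ik)| = 1 := by unfold sgn; split_ifs <;> simp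
        rw [abs_mul, h1, one_mul, abs_div, abs_of_pos hLR]
        have h2 : |z ik.1| ≤ ‖z‖ := by
          have := PiLp.norm_apply_le z ik.1
          simpa using this
        gcongr
    _ = n * (L : ℝ) ^ 3 * (‖z‖ / L) := by simp
    _ ≤ L * (L : ℝ) ^ 3 * (‖z‖ / L) := by
        have : (n : ℝ) ≤ L := by exact_mod_cast hL
        gcongr
    _ = _ := by field_simp

theorem mgf_eq (z : E n) : ∑ ε : Dir n L, Real.exp (uu ε z) =
    2 ^ (n * L ^ 3) * ∏ ik : Fin n × Fin (L ^ 3), Real.cosh (z ik.1 / L) := by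
  classical
  have h := prod_univ_sum (fun _ : Fin n × Fin (L ^ 3) => (univ : Finset Bool))
    (fun ik b => Real.exp (sgn b * (z ik.1 / L)))
  rw [Fintype.piFinset_univ] at h
  unfold uu
  simp_rw [Real.exp_sum]
  rw [← h]
  have h2 : ∀ ik : Fin n × Fin (L ^ 3), ∑ b : Bool, Real.exp (sgn b * (z ik.1 / L)) =
      2 * Real.cosh (z ik.1 / L) := by
    intro ik
    simp [sgn, Real.cosh_eq]
    ring
  simp_rw [h2]
  rw [prod_mul_distrib]
  simp

theorem sum_sq_coord (hL : 0 < L) (z : E n) :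
    ∑ ik : Fin n × Fin (L ^ 3), (z ik.1 / L) ^ 2 / 2 = L * ‖z‖ ^ 2 / 2 := by
  have hLR : (0 : ℝ) < L := by exact_mod_cast hL
  rw [Fintype.sum_prod_type, EuclideanSpace.real_norm_sq_eq, mul_sum, sum_div]
  refine sum_congr rfl fun i _ => ?_
  simp
  field_simp

theorem mgf_le (hL : 0 < L) (z : E n) : ∑ ε : Dir n L, Real.exp (uu ε z) ≤
    2 ^ (n * L ^ 3) * Real.exp (L * ‖z‖ ^ 2 / 2) := by
  rw [mgf_eq, ← sum_sq_coord hL, Real.exp_sum]
  apply mul_le_mul_of_nonneg_left _ (by positivity)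
  exact prod_le_prod (fun _ _ => (Real.cosh_pos _).le) fun _ _ => Real.cosh_le_exp_half_sq _

theorem exp_le_cosh (t : ℝ) : Real.exp (t ^ 2 / 2 - t ^ 4 / 8) ≤ Real.cosh t := by
  have h1 : 1 + t ^ 2 / 2 ≤ Real.cosh t := by
    have h2 : Real.cosh t = 1 + 2 * Real.sinh (t / 2) ^ 2 := by
      have := Real.cosh_two_mul (t / 2)
      rw [show 2 * (t / 2) = t by ring, Real.cosh_sq'] at this
      linarith
    have h3 : (t / 2) ^ 2 ≤ Real.sinh (t / 2) ^ 2 := by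
      rcases le_total 0 (t / 2) with h | h
      · exact pow_le_pow_left₀ h (Real.self_le_sinh_iff.2 h) 2
      · have h4 := Real.sinh_le_self_iff.2 h
        nlinarith
    nlinarith
  refine le_trans ?_ h1
  set y := t ^ 2 / 2 with hy
  have hy0 : 0 ≤ y := by positivity
  have h5 : t ^ 2 / 2 - t ^ 4 / 8 = y - y ^ 2 / 2 := by rw [hy]; ring
  rw [← hy] at h5
  rw [h5, ← Real.le_log_iff_exp_le (by linarith)]
  have h6 := Real.le_log_one_add_of_nonneg hy0
  refine le_trans ?_ h6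
  rw [le_div_iff₀ (by linarith)]
  nlinarith [mul_nonneg hy0 (sq_nonneg y)]

theorem mgf_ge (hL : 2 ≤ L) (z : E n) (hz : ‖z‖ ≤ 2) :
    2 ^ (n * L ^ 3) * Real.exp (L * ‖z‖ ^ 2 / 2 - 1) ≤ ∑ ε : Dir n L, Real.exp (uu ε z) := by
  have hLR : (2 : ℝ) ≤ L := by exact_mod_cast hL
  rw [mgf_eq]
  apply mul_le_mul_of_nonneg_left _ (by positivity)
  have h1 : ∑ ik : Fin n × Fin (L ^ 3), (z ik.1 / L) ^ 4 / 8 ≤ 1 := by
    calc _ ≤ ∑ ik : Fin n × Fin (L ^ 3), (z ik.1 / L) ^ 2 / 2 * (1 / L ^ 2) := by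
          refine sum_le_sum fun ik _ => ?_
          have h2 : |z ik.1| ≤ 2 := by
            have := PiLp.norm_apply_le z ik.1
            exact le_trans (by simpa using this) hz
          have h3 : (z ik.1) ^ 2 ≤ 4 := by
            have := sq_abs (z ik.1)
            nlinarith [abs_nonneg (z ik.1)]
          have h4 : (z ik.1 / L) ^ 4 / 8 = (z ik.1 / L) ^ 2 / 2 * ((z ik.1) ^ 2 / 4 / L ^ 2) := by
            field_simp
            ring
          rw [h4]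
          gcongr
          linarith
      _ = L * ‖z‖ ^ 2 / 2 * (1 / L ^ 2) := by rw [← sum_mul, sum_sq_coord (by omega)]
      _ ≤ L * 2 ^ 2 / 2 * (1 / L ^ 2) := by gcongr
      _ = 2 / L := by field_simp
      _ ≤ 1 := by rw [div_le_one (by linarith)]; exact hLR
  calc Real.exp (L * ‖z‖ ^ 2 / 2 - 1)
      ≤ Real.exp (∑ ik : Fin n × Fin (L ^ 3), ((z ik.1 / L) ^ 2 / 2 - (z ik.1 / L) ^ 4 / 8)) := by
        apply Real.exp_le_exp.2
        rw [sum_sub_distrib, sum_sq_coord (by omega)]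
        linarith
    _ ≤ _ := by
        rw [Real.exp_sum]
        exact prod_le_prod (fun _ _ => (Real.exp_pos _).le) fun _ _ => exp_le_cosh _

theorem geom_range (K : ℕ) : ∑ k ∈ range K, Real.exp k ≤ 2 * Real.exp (K - 1) := by
  induction K with
  | zero => simp; positivity
  | succ K ih =>
    rw [sum_range_succ]
    push_cast
    have h1 : Real.exp K = Real.exp (K - 1) * Real.exp 1 := by rw [← Real.exp_add]; ring_nf
    have h2 : (2 : ℝ) ≤ Real.exp 1 := by linarith [Real.add_one_le_exp 1]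
    have h3 := Real.exp_pos ((K : ℝ) - 1)
    rw [add_sub_cancel_right]
    nlinarith

theorem geom_le (N : ℕ) (T v : ℝ) :
    ∑ k : Fin N, (if (k : ℝ) - T ≤ v then Real.exp ((k : ℝ) - T) else 0) ≤ 2 * Real.exp v := by
  rw [Fin.sum_univ_eq_sum_range (fun k : ℕ => if (k : ℝ) - T ≤ v then Real.exp ((k : ℝ) - T) else 0)]
  rw [← sum_filter]
  rcases lt_or_ge (v + T) 0 with h | h
  · rw [filter_eq_empty_iff.2]
    · simp; positivity
    · intro k _
      have : (0 : ℝ) ≤ k := by positivity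
      linarith
  · calc _ ≤ ∑ k ∈ range (⌊v + T⌋₊ + 1), Real.exp ((k : ℝ) - T) := by
          refine sum_le_sum_of_subset_of_nonneg ?_ fun _ _ _ => (Real.exp_pos _).le
          intro k hk
          have := (mem_filter.1 hk).2
          exact mem_range.2 (Nat.lt_succ_of_le (Nat.le_floor (by linarith)))
      _ = (∑ k ∈ range (⌊v + T⌋₊ + 1), Real.exp k) * Real.exp (-T) := by
          rw [sum_mul]
          refine sum_congr rfl fun k _ => ?_
          rw [← Real.exp_add]; ring_nf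
      _ ≤ 2 * Real.exp (((⌊v + T⌋₊ + 1 : ℕ) : ℝ) - 1) * Real.exp (-T) :=
          mul_le_mul_of_nonneg_right (geom_range _) (Real.exp_pos _).le
      _ ≤ 2 * Real.exp v := by
          rw [mul_assoc, ← Real.exp_add]
          apply mul_le_mul_of_nonneg_left _ (by norm_num)
          apply Real.exp_le_exp.2
          have := Nat.floor_le h
          push_cast
          linarith

theorem pp_pos (a : Pool n L) : 0 < pp a := by unfold pp; positivity

theorem pp_le_one (hn : 5 ≤ n) (hL : 1 ≤ L) (a : Pool n L) : pp a ≤ 1 := by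
  unfold pp
  rw [div_le_one (by positivity)]
  have hL3 : (1 : ℝ) ≤ (L : ℝ) ^ 3 := one_le_pow₀ (by exact_mod_cast hL)
  have h1 : Real.exp (-(L : ℝ) / 2) / 8 ≤ 1 := by
    have : Real.exp (-(L : ℝ) / 2) ≤ 1 := Real.exp_le_one_iff.2 (by
      have : (0 : ℝ) ≤ L := by positivity
      linarith)
    linarith
  have h2 : lev L a.2 ≤ ((L ^ 3 : ℕ) : ℝ) * 3 := by
    have h3 : ((a.2 : ℕ) : ℝ) ≤ ((2 * (2 * L ^ 3 + 1) : ℕ) : ℝ) := by
      exact_mod_cast Nat.lt_succ_iff.1 a.2.2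
    unfold lev
    push_cast at h3 ⊢
    linarith
  have h4 : Real.exp 3 ≤ 2 ^ 5 := by
    have h5 : Real.exp 3 = Real.exp 1 ^ 3 := by rw [← Real.exp_nat_mul]; norm_num
    have h6 : Real.exp 1 ≤ 3 := (Real.exp_one_lt_d9.trans (by norm_num)).le
    rw [h5]
    calc Real.exp 1 ^ 3 ≤ 3 ^ 3 := by gcongr
      _ ≤ 2 ^ 5 := by norm_num
  calc _ ≤ 1 * Real.exp (((L ^ 3 : ℕ) : ℝ) * 3) := by gcongr
    _ = Real.exp 3 ^ (L ^ 3) := by rw [one_mul, Real.exp_nat_mul]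
    _ ≤ (2 ^ 5) ^ (L ^ 3) := by gcongr
    _ = 2 ^ (5 * L ^ 3) := by rw [← pow_mul]
    _ ≤ 2 ^ (n * L ^ 3) := pow_le_pow_right₀ (by norm_num) (Nat.mul_le_mul_right _ hn)

theorem mass_le_of_level (hL : 0 < L) (A : Finset (Pool n L)) (z : E n)
    (hA : ∀ a ∈ A, lev L a.2 ≤ uu a.1 z) :
    mass pp A ≤ Real.exp (-(L : ℝ) / 2 + L * ‖z‖ ^ 2 / 2) / 4 := by
  classical
  calc mass pp A ≤ ∑ a : Pool n L, if lev L a.2 ≤ uu a.1 z then pp a else 0 := by
        rw [← sum_filter]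
        exact sum_le_sum_of_subset_of_nonneg (fun a ha => mem_filter.2 ⟨mem_univ _, hA a ha⟩)
          fun a _ _ => (pp_pos a).le
    _ = ∑ ε : Dir n L, Real.exp (-(L : ℝ) / 2) / 8 / 2 ^ (n * L ^ 3) *
          ∑ k : Fin (2 * (2 * L ^ 3 + 1) + 1), (if (k : ℝ) - (2 * L ^ 3 + 1) ≤ uu ε z then
            Real.exp ((k : ℝ) - (2 * L ^ 3 + 1)) else 0) := by
        rw [Fintype.sum_prod_type]
        refine sum_congr rfl fun ε _ => ?_
        rw [mul_sum]
        refine sum_congr rfl fun k _ => ?_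
        by_cases hk : lev L k ≤ uu ε z
        · rw [if_pos hk, if_pos (show (k : ℝ) - (2 * L ^ 3 + 1) ≤ uu ε z from hk)]
          simp only [lev, pp]
          ring
        · rw [if_neg hk, if_neg (show ¬ (k : ℝ) - (2 * L ^ 3 + 1) ≤ uu ε z from hk), mul_zero]
    _ ≤ ∑ ε : Dir n L, Real.exp (-(L : ℝ) / 2) / 8 / 2 ^ (n * L ^ 3) * (2 * Real.exp (uu ε z)) :=
        sum_le_sum fun ε _ => mul_le_mul_of_nonneg_left (geom_le _ _ _) (by positivity)
    _ = Real.exp (-(L : ℝ) / 2) / 4 / 2 ^ (n * L ^ 3) * ∑ ε : Dir n L, Real.exp (uu ε z) := by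
        rw [mul_sum]
        refine sum_congr rfl fun ε _ => ?_
        ring
    _ ≤ Real.exp (-(L : ℝ) / 2) / 4 / 2 ^ (n * L ^ 3) *
          (2 ^ (n * L ^ 3) * Real.exp (L * ‖z‖ ^ 2 / 2)) :=
        mul_le_mul_of_nonneg_left (mgf_le hL z) (by positivity)
    _ = _ := by rw [Real.exp_add]; field_simp

open Classical in
/-- Pool elements that cut a point with a margin. -/
noncomputable def JJ (L : ℕ) (z : E n) : Finset (Pool n L) :=
  univ.filter (fun a => lev L a.2 + 1 ≤ uu a.1 z)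

theorem mass_JJ_ge (hL : 2 ≤ L) (hnL : n ≤ L) (z : E n) (hz : ‖z‖ ≤ 2) :
    Real.exp (-(L * (1 - ‖z‖ ^ 2) / 2) - 6) ≤ mass pp (JJ L z) := by
  classical
  have h1 : ∀ ε : Dir n L, Real.exp (-(L : ℝ) / 2) / 8 / 2 ^ (n * L ^ 3) *
      (Real.exp (-2) * Real.exp (uu ε z)) ≤
      ∑ k : Fin (2 * (2 * L ^ 3 + 1) + 1), if lev L k + 1 ≤ uu ε z then pp (ε, k) else 0 := by
    intro ε
    have h2 := abs_uu_le hnL ε z
    have h3 : (L : ℝ) ^ 3 * ‖z‖ ≤ 2 * L ^ 3 := by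
      have : (0 : ℝ) ≤ (L : ℝ) ^ 3 := by positivity
      nlinarith
    have h4 := abs_le.1 (h2.trans h3)
    have h5 : 0 ≤ uu ε z + 2 * L ^ 3 := by linarith
    have h6 := Nat.floor_le h5
    have h7 := Nat.lt_floor_add_one (uu ε z + 2 * L ^ 3)
    have h8 : ⌊uu ε z + 2 * L ^ 3⌋₊ < 2 * (2 * L ^ 3 + 1) + 1 := by
      have : (⌊uu ε z + 2 * L ^ 3⌋₊ : ℝ) < ((2 * (2 * L ^ 3 + 1) + 1 : ℕ) : ℝ) := by
        push_cast
        linarith
      exact_mod_cast this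
    refine le_trans ?_ (single_le_sum
      (f := fun k : Fin (2 * (2 * L ^ 3 + 1) + 1) =>
        if lev L k + 1 ≤ uu ε z then pp (ε, k) else 0)
      (fun k _ => by split_ifs; exacts [(pp_pos _).le, le_rfl]) (mem_univ ⟨_, h8⟩))
    have h9 : lev L ⌊uu ε z + 2 * L ^ 3⌋₊ + 1 ≤ uu ε z := by unfold lev; linarith
    simp only [h9, if_true, pp]
    rw [← Real.exp_add]
    have h10 : Real.exp (-2 + uu ε z) ≤ Real.exp (lev L ⌊uu ε z + 2 * L ^ 3⌋₊) :=
      Real.exp_le_exp.2 (by unfold lev; linarith)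
    calc _ ≤ Real.exp (-(L : ℝ) / 2) / 8 / 2 ^ (n * L ^ 3) *
          Real.exp (lev L ⌊uu ε z + 2 * L ^ 3⌋₊) := by gcongr
      _ = _ := by ring
  have h11 : Real.exp (-3) ≤ 1 / 8 := by
    rw [Real.exp_neg, ← one_div]
    apply one_div_le_one_div_of_le (by norm_num)
    have h5 : Real.exp 3 = Real.exp 1 ^ 3 := by rw [← Real.exp_nat_mul]; norm_num
    have h6 : (2 : ℝ) ≤ Real.exp 1 := by linarith [Real.add_one_le_exp 1]
    rw [h5]
    calc (8 : ℝ) = 2 ^ 3 := by norm_num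
      _ ≤ _ := by gcongr
  calc Real.exp (-(L * (1 - ‖z‖ ^ 2) / 2) - 6)
      = Real.exp (-3) * (Real.exp (-(L : ℝ) / 2) * Real.exp (-2) *
          Real.exp (L * ‖z‖ ^ 2 / 2 - 1)) := by
        rw [← Real.exp_add, ← Real.exp_add, ← Real.exp_add]; ring_nf
    _ ≤ 1 / 8 * (Real.exp (-(L : ℝ) / 2) * Real.exp (-2) *
          Real.exp (L * ‖z‖ ^ 2 / 2 - 1)) := by gcongr
    _ = Real.exp (-(L : ℝ) / 2) / 8 / 2 ^ (n * L ^ 3) * (Real.exp (-2) *
          (2 ^ (n * L ^ 3) * Real.exp (L * ‖z‖ ^ 2 / 2 - 1))) := by field_simp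
    _ ≤ Real.exp (-(L : ℝ) / 2) / 8 / 2 ^ (n * L ^ 3) * (Real.exp (-2) *
          ∑ ε : Dir n L, Real.exp (uu ε z)) := by
        gcongr
        exact mgf_ge hL z hz
    _ = ∑ ε : Dir n L, Real.exp (-(L : ℝ) / 2) / 8 / 2 ^ (n * L ^ 3) *
          (Real.exp (-2) * Real.exp (uu ε z)) := by rw [mul_sum, mul_sum]
    _ ≤ ∑ ε : Dir n L, ∑ k : Fin (2 * (2 * L ^ 3 + 1) + 1),
          if lev L k + 1 ≤ uu ε z then pp (ε, k) else 0 := sum_le_sum fun ε _ => h1 ε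
    _ = mass pp (JJ L z) := by
        unfold mass JJ
        rw [sum_filter, Fintype.sum_prod_type]

theorem JJ_nonempty (hL : 2 ≤ L) (hnL : n ≤ L) (z : E n) (hz : ‖z‖ ≤ 2) : (JJ L z).Nonempty := by
  by_contra h
  have h1 := mass_JJ_ge hL hnL z hz
  rw [not_nonempty_iff_eq_empty.1 h] at h1
  simp [mass] at h1
  exact absurd h1 (not_le.2 (Real.exp_pos _))

open Classical in
theorem ratio_le (hL : 2 ≤ L) (hnL : n ≤ L) (z w : E n) (hz : ‖z‖ ≤ 2) (hw : ‖w‖ ≤ 2) :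
    mass pp (JJ L z ∩ JJ L w) / (mass pp (JJ L z) * mass pp (JJ L w)) ≤
      Real.exp (12 + (L * (1 - ‖z‖ ^ 2) / 2 + L * (1 - ‖w‖ ^ 2) / 2) / 2 - L * ‖z - w‖ ^ 2 / 8) := by
  have h1 := mass_JJ_ge hL hnL z hz
  have h2 := mass_JJ_ge hL hnL w hw
  have h3 := mass_le_of_level (by omega) (JJ L z ∩ JJ L w) ((1 / 2 : ℝ) • (z + w)) (by
    intro a ha
    have h4 := (mem_filter.1 (mem_inter.1 ha).1).2
    have h5 := (mem_filter.1 (mem_inter.1 ha).2).2
    rw [uu_smul, uu_add]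
    linarith)
  have h6 : ‖(1 / 2 : ℝ) • (z + w)‖ ^ 2 = (‖z‖ ^ 2 + ‖w‖ ^ 2) / 2 - ‖z - w‖ ^ 2 / 4 := by
    have := parallelogram_law_with_norm ℝ z w
    rw [norm_smul, mul_pow]
    norm_num
    nlinarith
  rw [h6] at h3
  have h7 := Real.exp_pos (-(L : ℝ) / 2 + L * ((‖z‖ ^ 2 + ‖w‖ ^ 2) / 2 - ‖z - w‖ ^ 2 / 4) / 2)
  calc _ ≤ Real.exp (-(L : ℝ) / 2 + L * ((‖z‖ ^ 2 + ‖w‖ ^ 2) / 2 - ‖z - w‖ ^ 2 / 4) / 2) /
        (Real.exp (-(L * (1 - ‖z‖ ^ 2) / 2) - 6) * Real.exp (-(L * (1 - ‖w‖ ^ 2) / 2) - 6)) := by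
        have h8 := mass_nonneg (pp_pos (n := n) (L := L)) (JJ L z)
        gcongr
        linarith
    _ = _ := by
        rw [← Real.exp_add, ← Real.exp_sub]
        ring_nf

end Vale.Agent.P230
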