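import Vale.Agent.P230.Defs
import Vale.Agent.P230.Pool

namespace Vale.Agent.P230

open Finset MeasureTheory Metric

variable {n : ℕ}

/-- Volume of the unit ball. -/
noncomputable def vb (n : ℕ) : ℝ := (volume : Measure (E n)).real (ball 0 1)

theorem vb_pos (n : ℕ) : 0 < vb n :=
  ENNReal.toReal_pos (measure_ball_pos _ _ one_pos).ne' measure_ball_lt_top.ne

theorem vol_closedBall (x : E n) {r : ℝ} (hr : 0 ≤ r) :
    (volume : Measure (E n)).real (closedBall x r) = r ^ n * vb n := by
  rw [Measure.addHaar_real_closedBall _ x hr]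
  simp [vb]

theorem vol_ball (x : E n) {r : ℝ} (hr : 0 < r) :
    (volume : Measure (E n)).real (ball x r) = r ^ n * vb n := by
  simp [measureReal_def, Measure.addHaar_ball_of_pos _ x hr, vb, ENNReal.toReal_ofReal,
    pow_nonneg hr.le]

theorem card_le_of_sep (S : Finset (E n)) (w : E n) {δ d : ℝ} (hδ : 0 < δ) (hd : 0 ≤ d)
    (hS : ∀ c ∈ S, ‖c - w‖ ≤ d) (hsep : ∀ c ∈ S, ∀ c' ∈ S, c ≠ c' → δ ≤ ‖c - c'‖) :
    (S.card : ℝ) ≤ (1 + 2 * d / δ) ^ n := by
  have hD : (S : Set (E n)).PairwiseDisjoint (fun c => ball c (δ / 2)) := by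
    intro c hc c' hc' hne
    apply ball_disjoint_ball
    rw [dist_eq_norm]
    linarith [hsep c hc c' hc' hne]
  have h1 := measureReal_biUnion_finset (μ := (volume : Measure (E n))) hD
    (fun _ _ => measurableSet_ball) (fun _ _ => measure_ball_lt_top.ne)
  have h2 : (⋃ c ∈ S, ball c (δ / 2)) ⊆ ball w (d + δ / 2) := by
    refine Set.iUnion₂_subset fun c hc => ball_subset_ball' ?_
    rw [dist_eq_norm]
    linarith [hS c hc]
  have h3 := measureReal_mono (μ := (volume : Measure (E n))) h2 measure_ball_lt_top.ne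
  rw [h1, vol_ball _ (by linarith), sum_congr rfl (fun c _ => vol_ball c (half_pos hδ)),
    sum_const, nsmul_eq_mul, ← mul_assoc] at h3
  have h4 := le_of_mul_le_mul_right h3 (vb_pos n)
  have h5 : (1 + 2 * d / δ) = (d + δ / 2) / (δ / 2) := by field_simp; ring
  rw [h5, div_pow, le_div_iff₀ (by positivity)]
  exact h4

theorem exists_net {r δ : ℝ} (hr : 0 ≤ r) (hδ : 0 < δ) :
    ∃ Y : Finset (E n), (∀ y ∈ Y, ‖y‖ ≤ r) ∧ (∀ c ∈ Y, ∀ c' ∈ Y, c ≠ c' → δ ≤ ‖c - c'‖) ∧
      ∀ z : E n, ‖z‖ ≤ r → ∃ y ∈ Y, ‖z - y‖ ≤ δ := by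
  classical
  let P : ℕ → Prop := fun k => ∃ Y : Finset (E n), Y.card = k ∧ (∀ y ∈ Y, ‖y‖ ≤ r) ∧
    (∀ c ∈ Y, ∀ c' ∈ Y, c ≠ c' → δ ≤ ‖c - c'‖)
  obtain ⟨B, hB⟩ := exists_nat_ge ((1 + 2 * r / δ) ^ n)
  have hbd : ∀ k, P k → k ≤ B := by
    rintro k ⟨Y, rfl, h1, h2⟩
    have := card_le_of_sep Y 0 hδ hr (by simpa using h1) h2
    exact_mod_cast this.trans hB
  have h0 : P 0 := ⟨∅, rfl, by simp, by simp⟩
  obtain ⟨Y, hY, h1, h2⟩ := Nat.findGreatest_spec (P := P) (Nat.zero_le B) h0
  refine ⟨Y, h1, h2, fun z hz => ?_⟩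
  by_contra hcon
  push Not at hcon
  have hzY : z ∉ Y := fun h => by
    have := hcon z h
    simp at this
    linarith
  have h3 : P (Nat.findGreatest P B + 1) := by
    refine ⟨insert z Y, by rw [card_insert_of_notMem hzY, hY], ?_, ?_⟩
    · intro y hy
      rcases mem_insert.1 hy with rfl | hy
      exacts [hz, h1 y hy]
    · intro c hc c' hc' hne
      rcases mem_insert.1 hc with rfl | hc2
      · rcases mem_insert.1 hc' with rfl | hc3
        · exact absurd rfl hne
        · exact (hcon c' hc3).le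
      · rcases mem_insert.1 hc' with rfl | hc3
        · rw [norm_sub_rev]; exact (hcon c hc2).le
        · exact h2 c hc2 c' hc3 hne
  have := Nat.le_findGreatest (hbd _ h3) h3
  omega

theorem le_card_of_cover (Y : Finset (E n)) {r δ : ℝ} (hr : 0 ≤ r) (hδ : 0 < δ)
    (h : ∀ z : E n, ‖z‖ ≤ r → ∃ y ∈ Y, ‖z - y‖ ≤ δ) : (r / δ) ^ n ≤ Y.card := by
  have h2 : closedBall (0 : E n) r ⊆ ⋃ y ∈ Y, closedBall y δ := by
    intro z hz
    obtain ⟨y, hy, h1⟩ := h z (by simpa using hz)
    simp only [Set.mem_iUnion]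
    exact ⟨y, hy, by rwa [mem_closedBall, dist_eq_norm]⟩
  have h3 := measureReal_mono (μ := (volume : Measure (E n))) h2
    (measure_biUnion_lt_top Y.finite_toSet fun _ _ => measure_closedBall_lt_top).ne
  have h4 := measureReal_biUnion_finset_le (μ := (volume : Measure (E n))) Y
    (fun y => closedBall y δ)
  rw [vol_closedBall _ hr] at h3
  rw [sum_congr rfl (fun c _ => vol_closedBall c hδ.le), sum_const, nsmul_eq_mul,
    ← mul_assoc] at h4
  have h5 := le_of_mul_le_mul_right (h3.trans h4) (vb_pos n)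
  rw [div_pow, div_le_iff₀ (by positivity)]
  exact h5

theorem measurableSet_cube (R : ℝ) : MeasurableSet (cube n R) := by
  have : cube n R = ⋂ i, {x : E n | |x i| ≤ R} := by ext x; simp [cube]
  rw [this]
  exact MeasurableSet.iInter fun i => (isClosed_le (by fun_prop) continuous_const).measurableSet

theorem volume_cube {R : ℝ} (hR : 0 ≤ R) :
    (volume : Measure (E n)) (cube n R) = ENNReal.ofReal ((2 * R) ^ n) := by
  rw [← (PiLp.volume_preserving_toLp (Fin n)).measure_preimage
    (measurableSet_cube R).nullMeasurableSet]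
  have : WithLp.toLp 2 ⁻¹' cube n R = closedBall (0 : Fin n → ℝ) R := by
    ext x
    simp [cube, pi_norm_le_iff_of_nonneg hR]
  rw [this, Real.volume_pi_closedBall _ hR]
  simp

theorem isBounded_cube (R : ℝ) : Bornology.IsBounded (cube n R) := by
  refine (isBounded_closedBall (x := (0 : E n)) (r := Real.sqrt (n * R ^ 2))).subset ?_
  intro x hx
  rw [mem_closedBall_zero_iff, EuclideanSpace.norm_eq]
  apply Real.sqrt_le_sqrt
  calc ∑ i, ‖x i‖ ^ 2 ≤ ∑ _i : Fin n, R ^ 2 := by
        refine sum_le_sum fun i _ => ?_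
        have := hx i
        rw [Real.norm_eq_abs]
        exact pow_le_pow_left₀ (abs_nonneg _) this 2
    _ = n * R ^ 2 := by simp

theorem mem_cube_of_near {R d : ℝ} {x y : E n} (hy : y ∈ cube n R) (h : ‖x - y‖ ≤ d) :
    x ∈ cube n (R + d) := by
  intro i
  have h1 : |(x - y) i| ≤ ‖x - y‖ := by simpa using PiLp.norm_apply_le (x - y) i
  have h2 := hy i
  simp only [PiLp.sub_apply] at h1
  have h3 := abs_add_le (x i - y i) (y i)
  rw [sub_add_cancel] at h3
  linarith

open Classical in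
/-- Averaging over a large cube. -/
theorem exists_le_avg {β : Type*} (s : Finset β) (c : β → E n) (r w : β → ℝ)
    (hr : ∀ i ∈ s, 0 ≤ r i) (hw : ∀ i ∈ s, 0 ≤ w i) {R : ℝ} (hR : 0 < R) :
    ∃ y ∈ cube n R, ∑ i ∈ s, (if ‖y - c i‖ ≤ r i then w i else 0) ≤
      (∑ i ∈ s, w i * r i ^ n) * vb n / (2 * R) ^ n := by
  let f : E n → ℝ := fun y => ∑ i ∈ s, (closedBall (c i) (r i)).indicator (fun _ => w i) y
  have hint : ∀ i ∈ s, Integrable ((closedBall (c i) (r i)).indicator (fun _ => w i))
      (volume : Measure (E n)) := fun i _ =>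
    (integrable_indicator_iff measurableSet_closedBall).2
      (integrableOn_const measure_closedBall_lt_top.ne)
  have hf : Integrable f (volume : Measure (E n)) := integrable_finsetSum _ hint
  have hpos : 0 < (2 * R) ^ n := by positivity
  obtain ⟨y, hy, h⟩ := exists_le_setAverage (μ := (volume : Measure (E n))) (s := cube n R)
    (by rw [volume_cube hR.le]; simpa using hpos) (by rw [volume_cube hR.le]; simp)
    hf.integrableOn
  refine ⟨y, hy, ?_⟩
  have h1 : ∑ i ∈ s, (if ‖y - c i‖ ≤ r i then w i else 0) = f y := by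
    refine sum_congr rfl fun i _ => ?_
    simp [Set.indicator, dist_eq_norm]
  rw [h1]
  refine h.trans ?_
  rw [setAverage_eq, measureReal_def, volume_cube hR.le, ENNReal.toReal_ofReal hpos.le,
    smul_eq_mul, div_eq_inv_mul]
  apply mul_le_mul_of_nonneg_left _ (by positivity)
  calc ∫ x in cube n R, f x ≤ ∫ x, f x := setIntegral_le_integral hf
        (Filter.Eventually.of_forall fun x => sum_nonneg fun i hi =>
          Set.indicator_nonneg (fun _ _ => hw i hi) _)
    _ = _ := by
        rw [integral_finsetSum _ hint, sum_mul]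
        refine sum_congr rfl fun i hi => ?_
        rw [integral_indicator_const _ measurableSet_closedBall, vol_closedBall _ (hr i hi),
          smul_eq_mul]
        ring

end Vale.Agent.P230
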