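import Vale.Agent.P230.Periodic

namespace Vale.Agent.P230

open Finset MeasureTheory Metric Filter Module Submodule
open scoped Pointwise ENNReal Topology

variable {n : ℕ}

theorem exists_good_basis {K : Set (E n)} (hK : IsConvexBody K) :
    ∃ b : Basis (Fin n) ℝ (E n), (∀ i, ∃ u ∈ K, ∃ w ∈ K, b i = u - w) ∧
      ∀ u ∈ K, ∀ w ∈ K, ∀ i, |b.repr (u - w) i| ≤ 1 := by
  classical
  obtain ⟨hc, -, x₀, hx₀⟩ := hK
  let e : Basis (Fin n) ℝ (E n) := (EuclideanSpace.basisFun (Fin n) ℝ).toBasis
  let D : Set (E n) := (fun p : E n × E n => p.1 - p.2) '' (K ×ˢ K)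
  have hD : IsCompact D := (hc.prod hc).image (by fun_prop)
  have hpi : IsCompact (Set.univ.pi fun _ : Fin n => D) := isCompact_univ_pi fun _ => hD
  have hcont : Continuous fun v : Fin n → E n => |e.det v| := by
    apply Continuous.abs
    change Continuous fun v : Fin n → E n => Matrix.det (e.toMatrix v)
    apply Continuous.matrix_det
    refine continuous_pi fun i => continuous_pi fun j => ?_
    simp only [Basis.toMatrix_apply, e, OrthonormalBasis.coe_toBasis_repr_apply,
      EuclideanSpace.basisFun_repr]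
    fun_prop
  obtain ⟨r, hr, hball⟩ := Metric.isOpen_iff.1 isOpen_interior x₀ hx₀
  have hv₀ : (fun i => (r / 2) • e i) ∈ Set.univ.pi fun _ : Fin n => D := by
    intro i _
    refine ⟨(x₀ + (r / 2) • e i, x₀), ⟨interior_subset (hball ?_), interior_subset hx₀⟩, by simp⟩
    rw [mem_ball, dist_self_add_left, norm_smul]
    simp [e, abs_of_pos hr]
    linarith
  obtain ⟨v, hv, hmax⟩ := hpi.exists_isMaxOn ⟨_, hv₀⟩ hcont.continuousOn
  have hpos : 0 < |e.det v| := by
    refine lt_of_lt_of_le ?_ (hmax hv₀)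
    have : e.det (fun i => (r / 2) • e i) = (r / 2) ^ n := by
      have h1 := e.det.toMultilinearMap.map_smul_univ (fun _ => r / 2) e
      simp only [AlternatingMap.coe_multilinearMap, Basis.det_self] at h1
      rw [h1]
      simp [div_pow]
    simp only [this]
    positivity
  obtain ⟨hli, hsp⟩ := (e.is_basis_iff_det (v := v)).2 (isUnit_iff_ne_zero.2 (abs_pos.1 hpos))
  refine ⟨Basis.mk hli hsp.ge, fun i => ?_, fun u hu w hw i => ?_⟩
  · obtain ⟨p, hp, h⟩ := hv i trivial
    exact ⟨p.1, hp.1, p.2, hp.2, by simp [← h]⟩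
  · have h1 := LinearMap.congr_fun (e.det_smul_mk_coord_eq_det_update hli hsp.ge i) (u - w)
    simp only [LinearMap.smul_apply, Basis.coord_apply, smul_eq_mul,
      MultilinearMap.toLinearMap_apply, AlternatingMap.coe_multilinearMap] at h1
    have h2 : Function.update v i (u - w) ∈ Set.univ.pi fun _ : Fin n => D := by
      intro j _
      by_cases h : j = i
      · subst h
        simp only [Function.update_self]
        exact ⟨(u, w), ⟨hu, hw⟩, rfl⟩
      · rw [Function.update_of_ne h]
        exact hv j trivial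
    have h3 : |e.det (Function.update v i (u - w))| ≤ |e.det v| := hmax h2
    rw [← h1, abs_mul] at h3
    nlinarith

theorem exists_center (hn : 0 < n) {K : Set (E n)} (hK : Convex ℝ K) (b : Basis (Fin n) ℝ (E n))
    (hb : ∀ i, ∃ u ∈ K, ∃ w ∈ K, b i = u - w) :
    ∃ c : E n, ∀ p : E n, (∀ i, |b.repr p i| ≤ 1 / (2 * n)) → c + p ∈ K := by
  choose u hu w hw h using hb
  have hnR : (0 : ℝ) < n := by exact_mod_cast hn
  refine ⟨∑ i, (1 / (2 * n) : ℝ) • (u i + w i), fun p hp => ?_⟩
  have h1 : ∑ i, (1 / (2 * n) : ℝ) • (u i + w i) + p = ∑ i, (1 / n : ℝ) •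
      (((1 + 2 * n * b.repr p i) / 2) • u i + ((1 - 2 * n * b.repr p i) / 2) • w i) := by
    conv_lhs => rw [← b.sum_repr p]
    rw [← sum_add_distrib]
    refine sum_congr rfl fun i _ => ?_
    rw [h i]
    match_scalars <;> field_simp <;> ring
  rw [h1]
  refine hK.sum_mem (fun _ _ => by positivity) (by simp; field_simp) fun i _ => ?_
  have h2 := abs_le.1 (hp i)
  have h3 : -1 ≤ 2 * n * b.repr p i := by
    have := h2.1
    rw [_root_.neg_le, le_div_iff₀ (by positivity)] at this
    linarith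
  have h4 : 2 * n * b.repr p i ≤ 1 := by
    have := h2.2
    rw [le_div_iff₀ (by positivity)] at this
    linarith
  exact hK (hu i) (hw i) (by linarith) (by linarith) (by ring)

variable {ι : Type*} [Fintype ι] (b : Basis ι ℝ (E n))

theorem measure_le_inter {t : Set (E n)} (ht : MeasurableSet t)
    (hinj : ∀ x ∈ t, ∀ y ∈ t, x - y ∈ span ℤ (Set.range b) → x = y) :
    (volume : Measure (E n)) t ≤
      volume ((⋃ g : span ℤ (Set.range b), g +ᵥ t) ∩ ZSpan.fundamentalDomain b) := by
  have : MeasurableVAdd (span ℤ (Set.range b)) (E n) :=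
    (inferInstance : MeasurableVAdd (span ℤ (Set.range b)).toAddSubgroup (E n))
  have : VAddInvariantMeasure (span ℤ (Set.range b)) (E n) volume :=
    (inferInstance : VAddInvariantMeasure (span ℤ (Set.range b)).toAddSubgroup (E n) volume)
  rw [(ZSpan.isAddFundamentalDomain b volume).measure_eq_tsum t, Set.iUnion_inter,
    measure_iUnion]
  · intro g g' hne
    rw [Function.onFun, Set.disjoint_left]
    rintro y ⟨⟨x, hx, h1⟩, -⟩ ⟨⟨x', hx', h2⟩, -⟩
    apply hne
    simp only [vadd_eq_add] at h1 h2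
    have h3 : x - x' = (g' : E n) - g := by
      rw [sub_eq_sub_iff_add_eq_add, add_comm x, h1, ← h2]
    have h4 := hinj x hx x' hx' (h3 ▸ sub_mem g'.2 g.2)
    rw [h4, sub_self] at h3
    exact Subtype.ext (sub_eq_zero.1 h3.symm).symm
  · intro g
    exact (ht.const_vadd g).inter (ZSpan.fundamentalDomain_measurableSet b)

open Classical in
theorem greedy_step {K : Set (E n)} (hK : IsCompact K)
    (hinj : ∀ x ∈ K, ∀ y ∈ K, x - y ∈ span ℤ (Set.range b) → x = y) (U : Finset (E n)) :
    ∃ x : E n, (volume : Measure (E n)).real K /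
      (volume : Measure (E n)).real (ZSpan.fundamentalDomain b) * U.card ≤
      (U.filter (fun u => ∃ k ∈ K, u - x - k ∈ span ℤ (Set.range b))).card := by
  have : MeasurableVAdd (span ℤ (Set.range b)) (E n) :=
    (inferInstance : MeasurableVAdd (span ℤ (Set.range b)).toAddSubgroup (E n))
  set F := ZSpan.fundamentalDomain b with hF
  let T : E n → Set (E n) := fun u => ⋃ g : span ℤ (Set.range b), g +ᵥ ((fun y => u - y) ⁻¹' K)
  have hm : ∀ u : E n, MeasurableSet ((fun y => u - y) ⁻¹' K) := fun u =>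
    hK.measurableSet.preimage (by fun_prop)
  have hT : ∀ u, MeasurableSet (T u) := fun u => MeasurableSet.iUnion fun g => (hm u).const_vadd g
  have hFm : MeasurableSet F := ZSpan.fundamentalDomain_measurableSet b
  have : IsFiniteMeasure ((volume : Measure (E n)).restrict F) := isFiniteMeasure_restrict.2
    (fd_lt_top b).ne
  have hint : ∀ u ∈ U, Integrable ((T u).indicator (fun _ => (1 : ℝ)))
      ((volume : Measure (E n)).restrict F) := fun u _ => (integrable_const _).indicator (hT u)
  obtain ⟨x, -, hx⟩ := exists_setAverage_le (μ := (volume : Measure (E n))) (s := F)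
    (f := fun x => ∑ u ∈ U, (T u).indicator (fun _ => (1 : ℝ)) x)
    (ZSpan.measure_fundamentalDomain_ne_zero b) (fd_lt_top b).ne (integrable_finsetSum _ hint)
  refine ⟨x, le_trans ?_ (hx.trans ?_)⟩
  · rw [setAverage_eq, integral_finsetSum _ hint, smul_eq_mul, div_eq_inv_mul, mul_assoc]
    apply mul_le_mul_of_nonneg_left _ (inv_nonneg.2 measureReal_nonneg)
    calc _ = ∑ u ∈ U, (volume : Measure (E n)).real K := by
          rw [sum_const, nsmul_eq_mul, mul_comm]
      _ ≤ _ := by
          refine sum_le_sum fun u _ => ?_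
          rw [integral_indicator_const _ (hT u), smul_eq_mul, mul_one, measureReal_def,
            measureReal_def, Measure.restrict_apply (hT u)]
          apply ENNReal.toReal_mono
            ((measure_mono Set.inter_subset_right).trans_lt (fd_lt_top b)).ne
          rw [← (Measure.measurePreserving_sub_left (volume : Measure (E n)) u).measure_preimage
            hK.measurableSet.nullMeasurableSet]
          apply measure_le_inter b (hm u)
          intro y hy y' hy' h
          have := hinj _ hy' _ hy (by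
            have e : u - y' - (u - y) = y - y' := by abel
            rwa [e])
          exact (sub_right_injective this).symm
  · rw [card_filter]
    push_cast
    refine sum_le_sum fun u _ => ?_
    by_cases h : x ∈ T u
    · rw [Set.indicator_of_mem h, if_pos]
      obtain ⟨g, y, hy, h1⟩ := Set.mem_iUnion.1 h
      simp only [vadd_eq_add] at h1
      refine ⟨u - y, hy, ?_⟩
      have : u - x - (u - y) = -(g : E n) := by rw [← h1]; abel
      rw [this]
      exact neg_mem g.2
    · rw [Set.indicator_of_notMem h]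
      split_ifs <;> norm_num

open Classical in
theorem greedy {K : Set (E n)} (hK : IsCompact K)
    (hinj : ∀ x ∈ K, ∀ y ∈ K, x - y ∈ span ℤ (Set.range b) → x = y) (U : Finset (E n)) {σ : ℝ}
    (hσ : σ = (volume : Measure (E n)).real K /
      (volume : Measure (E n)).real (ZSpan.fundamentalDomain b)) (M : ℕ) :
    ∃ A : Finset (E n), A.card ≤ M ∧ ((U.filter
      (fun u => ¬ ∃ a ∈ A, ∃ k ∈ K, u - a - k ∈ span ℤ (Set.range b))).card : ℝ) ≤
        Real.exp (-σ) ^ M * U.card := by
  induction M with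
  | zero => exact ⟨∅, le_rfl, by simp⟩
  | succ M ih =>
    obtain ⟨A, hA, h⟩ := ih
    set U' := U.filter (fun u => ¬ ∃ a ∈ A, ∃ k ∈ K, u - a - k ∈ span ℤ (Set.range b)) with hU'
    obtain ⟨x, hx⟩ := greedy_step b hK hinj U'
    rw [← hσ] at hx
    refine ⟨insert x A, (card_insert_le _ _).trans (by omega), ?_⟩
    have h1 : U.filter (fun u => ¬ ∃ a ∈ insert x A, ∃ k ∈ K, u - a - k ∈ span ℤ (Set.range b)) =
        U'.filter (fun u => ¬ ∃ k ∈ K, u - x - k ∈ span ℤ (Set.range b)) := by
      ext u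
      simp only [hU', mem_filter, mem_insert, exists_eq_or_imp, not_or]
      tauto
    have h2 := card_filter_add_card_filter_not (s := U')
      (fun u => ∃ k ∈ K, u - x - k ∈ span ℤ (Set.range b))
    have h3 : ((U'.filter (fun u => ∃ k ∈ K, u - x - k ∈ span ℤ (Set.range b))).card : ℝ) +
      (U'.filter (fun u => ¬ ∃ k ∈ K, u - x - k ∈ span ℤ (Set.range b))).card = U'.card := by
      exact_mod_cast h2
    rw [h1]
    have h4 := Real.add_one_le_exp (-σ)
    calc _ ≤ (-σ + 1) * U'.card := by linarith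
      _ ≤ Real.exp (-σ) * U'.card := by gcongr
      _ ≤ Real.exp (-σ) * (Real.exp (-σ) ^ M * U.card) := by gcongr
      _ = _ := by ring

theorem inj_homothety {K : Set (E n)} (b : Basis (Fin n) ℝ (E n)) (c : E n) {l : ℝ} (hl0 : 0 < l)
    (hl1 : l < 1) (hb2 : ∀ u ∈ K, ∀ w ∈ K, ∀ i, |b.repr (u - w) i| ≤ 1) :
    ∀ x ∈ AffineMap.homothety c l '' K, ∀ y ∈ AffineMap.homothety c l '' K,
      x - y ∈ span ℤ (Set.range b) → x = y := by
  rintro x ⟨k, hk, rfl⟩ y ⟨k', hk', rfl⟩ h
  have e : AffineMap.homothety c l k - AffineMap.homothety c l k' = l • (k - k') := by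
    simp only [AffineMap.homothety_apply, vsub_eq_sub, vadd_eq_add]
    module
  rw [← sub_eq_zero, e]
  rw [e, Basis.mem_span_iff_repr_mem] at h
  apply b.ext_elem
  intro i
  obtain ⟨z, hz⟩ := h i
  have h1 : |b.repr (l • (k - k')) i| < 1 := by
    rw [map_smul, Finsupp.smul_apply, smul_eq_mul, abs_mul, abs_of_pos hl0]
    have := hb2 k hk k' hk' i
    nlinarith [abs_nonneg (b.repr (k - k') i)]
  rw [← hz] at h1 ⊢
  have h2 : |z| < 1 := by
    simp only [algebraMap_int_eq, eq_intCast] at h1
    exact_mod_cast h1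
  rw [Int.abs_lt_one_iff.1 h2]
  simp

theorem cover_of_grid (hn : 2 ≤ n) {K : Set (E n)} (hK : Convex ℝ K) (b : Basis (Fin n) ℝ (E n))
    (c : E n) (hc : ∀ p : E n, (∀ i, |b.repr p i| ≤ 1 / (2 * n)) → c + p ∈ K) (A : Finset (E n))
    (hall : ∀ m : Fin n → Fin (4 * n ^ 2), ∃ a ∈ A,
      ∃ k ∈ AffineMap.homothety c (1 - 1 / (2 * n) : ℝ) '' K,
        ∑ i, ((m i : ℝ) / (4 * n ^ 2 : ℕ)) • b i - a - k ∈ span ℤ (Set.range b)) :
    K + ((A : Set (E n)) + (span ℤ (Set.range b) : Set (E n))) = Set.univ := by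
  have hnR : (2 : ℝ) ≤ n := by exact_mod_cast hn
  have hl1 : 1 / (2 * (n : ℝ)) ≤ 1 / 4 := one_div_le_one_div_of_le (by norm_num) (by linarith)
  have hl2 : 0 < 1 / (2 * (n : ℝ)) := by positivity
  set Q : ℕ := 4 * n ^ 2 with hQ
  have hQR : (Q : ℝ) = 4 * n ^ 2 := by rw [hQ]; push_cast; ring
  refine Set.eq_univ_of_forall fun x => ?_
  have hf := ZSpan.fract_mem_fundamentalDomain b x
  rw [ZSpan.mem_fundamentalDomain] at hf
  set f := ZSpan.fract b x with hfdef
  have hQpos : (0 : ℝ) < Q := by rw [hQR]; positivity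
  have hlt : ∀ i, ⌊b.repr f i * Q⌋₊ < Q := fun i => by
    rw [Nat.floor_lt (mul_nonneg (hf i).1 hQpos.le)]
    nlinarith [(hf i).2]
  obtain ⟨a, ha, k', ⟨k, hk, rfl⟩, hl'⟩ := hall (fun i => ⟨_, hlt i⟩)
  set g : E n := ∑ i, ((⌊b.repr f i * Q⌋₊ : ℝ) / Q) • b i with hg
  have hp : ∀ i, |b.repr ((2 * n : ℝ) • (f - g)) i| ≤ 1 / (2 * n) := by
    intro i
    have h1 : b.repr g i = (⌊b.repr f i * Q⌋₊ : ℝ) / Q := by
      rw [hg, b.repr_sum_self]
    have h2 := Nat.floor_le (mul_nonneg (hf i).1 hQpos.le)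
    have h3 := Nat.lt_floor_add_one (b.repr f i * Q)
    have h4 : b.repr f i - (⌊b.repr f i * Q⌋₊ : ℝ) / Q =
        (b.repr f i * Q - ⌊b.repr f i * Q⌋₊) / Q := by field_simp
    rw [map_smul, map_sub, Finsupp.smul_apply, Finsupp.sub_apply, h1, h4, smul_eq_mul,
      abs_of_nonneg (mul_nonneg (by positivity) (div_nonneg (by linarith) hQpos.le))]
    calc _ ≤ 2 * n * (1 / (Q : ℝ)) := by gcongr; linarith
      _ = _ := by rw [hQR]; field_simp; ring
  have hin := hK hk (hc _ hp) (a := 1 - 1 / (2 * n)) (by linarith) hl2.le (by ring)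
  refine ⟨_, hin, a + ((g - a - AffineMap.homothety c (1 - 1 / (2 * n) : ℝ) k) + ZSpan.floor b x),
    ⟨a, ha, _, add_mem hl' (ZSpan.floor b x).2, rfl⟩, ?_⟩
  have e1 : (ZSpan.floor b x : E n) = x - f := by rw [hfdef, ZSpan.fract_apply]; abel
  simp only [AffineMap.homothety_apply, vsub_eq_sub, vadd_eq_add]
  rw [e1]
  have hn0 : (n : ℝ) ≠ 0 := by positivity
  match_scalars <;> field_simp <;> ring

theorem rogers (hn : 2 ≤ n) {K : Set (E n)} (hK : IsConvexBody K) :
    thetaT K ≤ ENNReal.ofReal (12 * n * Real.log n) := by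
  classical
  obtain ⟨b, hb1, hb2⟩ := exists_good_basis hK
  obtain ⟨c, hc⟩ := exists_center (by omega) hK.2.1 b hb1
  have hnR : (2 : ℝ) ≤ n := by exact_mod_cast hn
  set l : ℝ := 1 - 1 / (2 * n) with hl
  have hl1 : 1 / (2 * (n : ℝ)) ≤ 1 / 4 := one_div_le_one_div_of_le (by norm_num) (by linarith)
  have hl2 : 0 < 1 / (2 * (n : ℝ)) := by positivity
  have hl0 : 0 < l := by linarith
  set K' := AffineMap.homothety c l '' K with hK'
  have hK'c : IsCompact K' := hK.1.image (AffineMap.homothety_continuous c l)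
  have hinj := inj_homothety b c hl0 (by linarith) hb2
  rw [← hK'] at hinj
  set V := (volume : Measure (E n)).real (ZSpan.fundamentalDomain b) with hV
  have hV0 : 0 < V := fd_pos b
  have hKfin : (volume : Measure (E n)) K ≠ ⊤ := hK.1.measure_lt_top.ne
  have hKpos : 0 < (volume : Measure (E n)).real K :=
    ENNReal.toReal_pos (Measure.measure_pos_of_nonempty_interior _ hK.2.2).ne' hKfin
  have hvol : (volume : Measure (E n)).real K' = l ^ n * (volume : Measure (E n)).real K := by
    rw [measureReal_def, hK', Measure.addHaar_image_homothety, ENNReal.toReal_mul,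
      ENNReal.toReal_ofReal (abs_nonneg _), abs_of_pos (by positivity)]
    simp [measureReal_def]
  have hln : 1 / 2 ≤ l ^ n := by
    have := one_add_mul_le_pow (a := -(1 / (2 * (n : ℝ)))) (by linarith) n
    have e : 1 + n * -(1 / (2 * (n : ℝ))) = 1 / 2 := by field_simp; ring
    rw [e] at this
    exact this
  set σ := (volume : Measure (E n)).real K' / V with hσ
  have hσ0 : 0 < σ := by rw [hσ, hvol]; positivity
  have hσ1 : σ ≤ 1 := by
    obtain ⟨x, hx⟩ := greedy_step b hK'c hinj {0}
    have h1 := card_filter_le ({0} : Finset (E n))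
      (fun u => ∃ k ∈ K', u - x - k ∈ span ℤ (Set.range b))
    rw [card_singleton] at hx h1
    have h2 : ((({0} : Finset (E n)).filter
      (fun u => ∃ k ∈ K', u - x - k ∈ span ℤ (Set.range b))).card : ℝ) ≤ 1 := by exact_mod_cast h1
    simpa using hx.trans h2
  set Q : ℕ := 4 * n ^ 2 with hQ
  have hQ0 : 0 < Q := by positivity
  have hQR : (Q : ℝ) = 4 * n ^ 2 := by rw [hQ]; push_cast; ring
  let grid : (Fin n → Fin Q) → E n := fun m => ∑ i, ((m i : ℝ) / Q) • b i
  let U : Finset (E n) := univ.image grid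
  have hU : (U.card : ℝ) ≤ Real.exp (n * Real.log Q) := by
    rw [Real.exp_nat_mul, Real.exp_log (by positivity)]
    have : U.card ≤ Q ^ n := card_image_le.trans (by simp)
    exact_mod_cast this
  have hlogQ : 0 ≤ Real.log Q := Real.log_natCast_nonneg _
  set M := ⌈n * Real.log Q / σ⌉₊ + 1 with hM
  have hM1 : n * Real.log Q + σ ≤ M * σ := by
    have := Nat.le_ceil (n * Real.log Q / σ)
    rw [div_le_iff₀ hσ0] at this
    rw [hM]; push_cast; linarith
  have hM2 : M * σ ≤ n * Real.log Q + 2 := by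
    have := (Nat.ceil_lt_add_one (a := n * Real.log Q / σ) (by positivity)).le
    have h2 := mul_le_mul_of_nonneg_right this hσ0.le
    rw [add_mul, div_mul_cancel₀ _ hσ0.ne'] at h2
    rw [hM]; push_cast; linarith
  obtain ⟨A, hA, hcov⟩ := greedy b hK'c hinj U hσ M
  have hall : ∀ u ∈ U, ∃ a ∈ A, ∃ k ∈ K', u - a - k ∈ span ℤ (Set.range b) := by
    have h1 : Real.exp (-σ) ^ M * U.card < 1 := by
      calc _ ≤ Real.exp (-σ) ^ M * Real.exp (n * Real.log Q) := by gcongr
        _ < 1 := by
          rw [← Real.exp_nat_mul, ← Real.exp_add]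
          apply Real.exp_lt_one_iff.2
          linarith
    have h2 := hcov.trans_lt h1
    have h3 : (U.filter
      (fun u => ¬ ∃ a ∈ A, ∃ k ∈ K', u - a - k ∈ span ℤ (Set.range b))).card = 0 := by
      have : (U.filter
        (fun u => ¬ ∃ a ∈ A, ∃ k ∈ K', u - a - k ∈ span ℤ (Set.range b))).card < 1 := by
        exact_mod_cast h2
      omega
    intro u hu
    by_contra h
    exact (filter_eq_empty_iff.1 (card_eq_zero.1 h3)) hu h
  have hcover := cover_of_grid hn hK.2.1 b c hc A
    (fun m => hall _ (mem_image_of_mem grid (mem_univ m)))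
  refine (thetaT_le_periodic b K A hcover).trans ?_
  rw [← ENNReal.ofReal_toReal hKfin, ← ENNReal.ofReal_mul ENNReal.toReal_nonneg]
  apply ENNReal.ofReal_le_ofReal
  rw [← measureReal_def, ← hV]
  have hAM : (A.card : ℝ) ≤ M := by exact_mod_cast hA
  have h1 : (volume : Measure (E n)).real K / V ≤ 2 * σ := by
    rw [hσ, hvol, ← mul_div_assoc]
    gcongr
    nlinarith
  have hlog2 : Real.log 2 ≤ Real.log n := Real.log_le_log (by norm_num) hnR
  have hlog3 := Real.log_two_gt_d9
  have h2 : Real.log Q ≤ 4 * Real.log n := by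
    have : (Q : ℝ) = 2 ^ 2 * n ^ 2 := by rw [hQR]; ring
    rw [this, Real.log_mul (by positivity) (by positivity), Real.log_pow, Real.log_pow]
    push_cast
    linarith
  calc _ = (volume : Measure (E n)).real K / V * A.card := by ring
    _ ≤ 2 * σ * M := by gcongr
    _ ≤ 2 * (n * Real.log Q + 2) := by linarith
    _ ≤ 2 * (n * (4 * Real.log n) + 2) := by gcongr
    _ ≤ _ := by nlinarith

end Vale.Agent.P230
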