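import Vale.Agent.P230.Body

namespace Vale.Agent.P230

open Finset MeasureTheory Metric

variable {n : ℕ}

theorem exists_le_avg' (f : E n → ℝ) (hf : Integrable f (volume : Measure (E n)))
    (h0 : ∀ x, 0 ≤ f x) {R : ℝ} (hR : 0 < R) :
    ∃ y ∈ cube n R, f y ≤ (∫ x, f x) / (2 * R) ^ n := by
  have hpos : 0 < (2 * R) ^ n := by positivity
  obtain ⟨y, hy, h⟩ := exists_le_setAverage (μ := (volume : Measure (E n))) (s := cube n R)
    (by rw [volume_cube hR.le]; simpa using hpos) (by rw [volume_cube hR.le]; simp)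
    hf.integrableOn
  refine ⟨y, hy, h.trans ?_⟩
  rw [setAverage_eq, measureReal_def, volume_cube hR.le, ENNReal.toReal_ofReal hpos.le,
    smul_eq_mul, div_eq_inv_mul]
  exact mul_le_mul_of_nonneg_left
    (setIntegral_le_integral hf (Filter.Eventually.of_forall h0)) (by positivity)

open Classical in
/-- Number of points of `X` within distance `r` of `w`. -/
noncomputable def cntB (X : Finset (E n)) (r : ℝ) (w : E n) : ℝ :=
  ∑ x ∈ X, if ‖w - x‖ ≤ r then 1 else 0

theorem cntB_nonneg (X : Finset (E n)) (r : ℝ) (w : E n) : 0 ≤ cntB X r w :=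
  sum_nonneg fun _ _ => by split_ifs <;> norm_num

theorem cntB_eq (X : Finset (E n)) (r : ℝ) (y : E n) : (fun w => cntB X r (w + y)) =
    fun w => ∑ x ∈ X, (closedBall (x - y) r).indicator (fun _ => (1 : ℝ)) w := by
  funext w
  refine sum_congr rfl fun x _ => ?_
  have : w + y - x = w - (x - y) := by abel
  simp [Set.indicator, dist_eq_norm, this]

theorem integrable_ind (c : E n) (r : ℝ) :
    Integrable ((closedBall c r).indicator (fun _ => (1 : ℝ))) (volume : Measure (E n)) :=
  (integrable_indicator_iff measurableSet_closedBall).2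
    (integrableOn_const measure_closedBall_lt_top.ne)

theorem integrable_cntB (X : Finset (E n)) (r : ℝ) (y : E n) :
    Integrable (fun w => cntB X r (w + y)) (volume : Measure (E n)) := by
  rw [cntB_eq]
  exact integrable_finsetSum _ fun x _ => integrable_ind _ _

theorem integral_cntB (X : Finset (E n)) {r : ℝ} (hr : 0 ≤ r) (y : E n) :
    ∫ w, cntB X r (w + y) = X.card * (r ^ n * vb n) := by
  rw [cntB_eq, integral_finsetSum _ fun x _ => integrable_ind _ _]
  simp_rw [integral_indicator_const _ measurableSet_closedBall, vol_closedBall _ hr]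
  simp

theorem radius_pow_le (hn : 0 < n) {t : ℝ} (ht : 0 ≤ 1 + t / n) : (1 + t / n) ^ n ≤ Real.exp t := by
  have hnR : (0 : ℝ) < n := by exact_mod_cast hn
  calc (1 + t / n) ^ n ≤ Real.exp (t / n) ^ n := by
        apply pow_le_pow_left₀ ht
        linarith [Real.add_one_le_exp (t / n)]
    _ = Real.exp t := by rw [← Real.exp_nat_mul]; congr 1; field_simp

open Classical in
theorem count_ge (hn : 0 < n) (J : ℕ) (s : ℝ) (h1 : -1 ≤ n * (1 - s)) (h2 : n * (1 - s) ≤ J - 1) :
    1 + max 0 (n * (1 - s) + 1 / 2) ≤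
      2 * ∑ j ∈ range (J + 1), if s ≤ 1 + (1 - (j : ℝ)) / n then (1 : ℝ) else 0 := by
  have hnR : (0 : ℝ) < n := by exact_mod_cast hn
  set t := n * (1 - s) with ht
  have h3 : 0 ≤ t + 1 := by linarith
  have hsub : range (⌊t + 1⌋₊ + 1) ⊆
      (range (J + 1)).filter (fun j : ℕ => s ≤ 1 + (1 - (j : ℝ)) / n) := by
    intro j hj
    have h4 : j ≤ ⌊t + 1⌋₊ := Nat.lt_succ_iff.1 (mem_range.1 hj)
    have h5 : (j : ℝ) ≤ t + 1 := le_trans (by exact_mod_cast h4) (Nat.floor_le h3)
    refine mem_filter.2 ⟨mem_range.2 ?_, ?_⟩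
    · have : (j : ℝ) ≤ J := by linarith
      have : j ≤ J := by exact_mod_cast this
      omega
    · have h6 : s - 1 ≤ (1 - (j : ℝ)) / n := by
        rw [le_div_iff₀ hnR]
        have : (s - 1) * n = -t := by rw [ht]; ring
        linarith
      linarith
  rw [sum_boole]
  have h7 := card_le_card hsub
  rw [card_range] at h7
  have h8 : ((⌊t + 1⌋₊ + 1 : ℕ) : ℝ) ≤
      ((range (J + 1)).filter (fun j : ℕ => s ≤ 1 + (1 - (j : ℝ)) / n)).card := by
    exact_mod_cast h7
  push_cast at h8
  have h9 := Nat.lt_floor_add_one (t + 1)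
  have h10 : (0 : ℝ) ≤ ⌊t + 1⌋₊ := by positivity
  rcases le_total 0 (t + 1 / 2) with h | h
  · rw [max_eq_right h]; linarith
  · rw [max_eq_left h]; linarith

open Classical in
theorem window (hn : 0 < n) (J : ℕ) (hJ : J ≤ n) {η Θ₀ R : ℝ} (hη : n * η ≤ 1 / 2)
    (hR : 0 < R) (hΘ₀ : 0 < Θ₀) (Xf : Finset (E n))
    (hX : Xf.card * vb n ≤ Θ₀ * (2 * R) ^ n) (Y G : Finset (E n)) (hY : Y.Nonempty)
    (hG : ∀ z : E n, ‖z‖ ≤ 2 → ∃ g ∈ G, ‖z - g‖ ≤ η) (hH : 16 * Θ₀ < Real.exp (J - 1)) :
    ∃ y₀ ∈ cube n R, ∃ X ⊆ G, (X.card : ℝ) ≤ 8 * Θ₀ * 2 ^ n ∧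
      Y.card ≤ 2 * (Y.filter (GoodTest η J (32 * Θ₀) X)).card ∧
      ∀ x ∈ Xf, ‖x - y₀‖ ≤ 2 → ∃ g ∈ X, ‖x - y₀ - g‖ ≤ η := by
  have hnR : (0 : ℝ) < n := by exact_mod_cast hn
  have hYR : (0 : ℝ) < Y.card := by exact_mod_cast card_pos.2 hY
  let rad : ℕ → ℝ := fun j => 1 + (1 - (j : ℝ)) / n
  have hrad : ∀ j, j ≤ J → 0 ≤ rad j := by
    intro j hj
    have h1 : (j : ℝ) ≤ n := by exact_mod_cast hj.trans hJ
    have h2 : -1 ≤ (1 - (j : ℝ)) / n := by rw [le_div_iff₀ hnR]; linarith
    simp only [rad]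
    linarith
  set H := Real.exp (J - 1) with hHdef
  have hH0 : 0 < H := Real.exp_pos _
  let cost : E n → E n → ℝ := fun y w =>
    ∑ j ∈ range (J + 1), cntB Xf (rad j) (w + y) + H * cntB Xf (rad J) (w + y)
  have hcost0 : ∀ y w, 0 ≤ cost y w := fun y w =>
    add_nonneg (sum_nonneg fun _ _ => cntB_nonneg _ _ _) (mul_nonneg hH0.le (cntB_nonneg _ _ _))
  have hcosti : ∀ y, Integrable (cost y) (volume : Measure (E n)) := fun y =>
    (integrable_finsetSum _ fun j _ => integrable_cntB _ _ _).add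
      ((integrable_cntB _ _ _).const_mul H)
  have hcostI : ∀ y, ∫ w, cost y w ≤ 7 * (Xf.card * vb n) := by
    intro y
    simp only [cost]
    rw [integral_add (integrable_finsetSum _ fun j _ => integrable_cntB _ _ _)
      ((integrable_cntB _ _ _).const_mul H), integral_finsetSum _ fun j _ => integrable_cntB _ _ _,
      integral_const_mul, integral_cntB _ (hrad J le_rfl),
      sum_congr rfl fun j hj => integral_cntB Xf (hrad j (Nat.lt_succ_iff.1 (mem_range.1 hj))) y]
    have hc : 0 ≤ (Xf.card : ℝ) * vb n := mul_nonneg (by positivity) (vb_pos n).le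
    have h1 : ∑ j ∈ range (J + 1), rad j ^ n ≤ 6 := by
      calc _ ≤ ∑ j ∈ range (J + 1), 3 * (1 / 2 : ℝ) ^ j := by
            refine sum_le_sum fun j hj => ?_
            refine (radius_pow_le hn (hrad j (Nat.lt_succ_iff.1 (mem_range.1 hj)))).trans ?_
            have h6 : (2 : ℝ) ≤ Real.exp 1 := by linarith [Real.add_one_le_exp 1]
            have h7 : Real.exp 1 ≤ 3 := (Real.exp_one_lt_d9.trans (by norm_num)).le
            rw [Real.exp_sub, one_div, inv_pow, ← div_eq_mul_inv, ← mul_one (j : ℝ),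
              Real.exp_nat_mul]
            gcongr
        _ ≤ 3 * 2 := by rw [← mul_sum]; gcongr; exact sum_geometric_two_le _
        _ = 6 := by norm_num
    have h2 : H * rad J ^ n ≤ 1 := by
      calc H * rad J ^ n ≤ H * Real.exp (1 - J) :=
            mul_le_mul_of_nonneg_left (radius_pow_le hn (hrad J le_rfl)) hH0.le
        _ = 1 := by rw [hHdef, ← Real.exp_add]; simp
    have e1 : ∑ j ∈ range (J + 1), (Xf.card : ℝ) * (rad j ^ n * vb n) =
        (∑ j ∈ range (J + 1), rad j ^ n) * (Xf.card * vb n) := by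
      rw [sum_mul]
      exact sum_congr rfl fun j _ => by ring
    have e2 : H * ((Xf.card : ℝ) * (rad J ^ n * vb n)) = (H * rad J ^ n) * (Xf.card * vb n) := by
      ring
    rw [e1, e2]
    nlinarith
  let F : E n → ℝ := fun w => cntB Xf 2 (w + 0) / 2 ^ n + (∑ y ∈ Y, cost y w) / Y.card
  have hF1 : Integrable (fun w => cntB Xf 2 (w + 0) / 2 ^ n) (volume : Measure (E n)) :=
    (integrable_cntB _ _ _).div_const _
  have hF2 : Integrable (fun w => (∑ y ∈ Y, cost y w) / Y.card) (volume : Measure (E n)) :=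
    (integrable_finsetSum _ fun y _ => hcosti y).div_const _
  have hA0 : ∀ w, 0 ≤ cntB Xf 2 (w + 0) / 2 ^ n := fun w =>
    div_nonneg (cntB_nonneg _ _ _) (by positivity)
  have hB0 : ∀ w, 0 ≤ (∑ y ∈ Y, cost y w) / Y.card := fun w =>
    div_nonneg (sum_nonneg fun y _ => hcost0 y w) hYR.le
  obtain ⟨y₀, hy₀, hF⟩ := exists_le_avg' F (hF1.add hF2) (fun w => add_nonneg (hA0 w) (hB0 w)) hR
  have hFI : ∫ w, F w ≤ 8 * (Xf.card * vb n) := by
    simp only [F]
    rw [integral_add hF1 hF2, integral_div, integral_div, integral_cntB _ (by norm_num),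
      integral_finsetSum _ fun y _ => hcosti y]
    have h1 : (∑ y ∈ Y, ∫ w, cost y w) / Y.card ≤ 7 * (Xf.card * vb n) := by
      rw [div_le_iff₀ hYR]
      calc _ ≤ ∑ y ∈ Y, 7 * (Xf.card * vb n) := sum_le_sum fun y _ => hcostI y
        _ = _ := by rw [sum_const, nsmul_eq_mul]; ring
    have h2 : (Xf.card : ℝ) * (2 ^ n * vb n) / 2 ^ n = Xf.card * vb n := by field_simp
    linarith
  have hF8 : F y₀ ≤ 8 * Θ₀ := by
    refine hF.trans ?_
    rw [div_le_iff₀ (by positivity)]
    linarith
  choose! g hg using hG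
  let Xn := Xf.filter (fun x => ‖x - y₀‖ ≤ 2)
  refine ⟨y₀, hy₀, Xn.image (fun x => g (x - y₀)), ?_, ?_, ?_, ?_⟩
  · intro z hz
    obtain ⟨x, hx, rfl⟩ := mem_image.1 hz
    exact (hg _ (mem_filter.1 hx).2).1
  · have h1 : ((Xn.image (fun x => g (x - y₀))).card : ℝ) ≤ cntB Xf 2 (y₀ + 0) := by
      unfold cntB
      rw [sum_boole, add_zero]
      have : Xf.filter (fun x => ‖y₀ - x‖ ≤ 2) = Xn := by
        simp only [Xn, norm_sub_rev]
      rw [this]
      exact_mod_cast card_image_le
    have h2 : cntB Xf 2 (y₀ + 0) / 2 ^ n ≤ 8 * Θ₀ := by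
      have := hB0 y₀
      simp only [F] at hF8
      linarith
    rw [div_le_iff₀ (by positivity)] at h2
    exact h1.trans h2
  · have h1 : ∑ y ∈ Y, cost y y₀ ≤ 8 * Θ₀ * Y.card := by
      have := hA0 y₀
      simp only [F] at hF8
      rw [← div_le_iff₀ hYR]
      linarith
    have hgood : ∀ y ∈ Y, cost y y₀ ≤ 16 * Θ₀ →
        GoodTest η J (32 * Θ₀) (Xn.image (fun x => g (x - y₀))) y := by
      intro y hy hc
      have hdeep : ∀ x ∈ Xf, n * (1 - ‖y₀ + y - x‖) ≤ J - 1 := by
        intro x hx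
        by_contra hcon
        have h2 : ‖y₀ + y - x‖ ≤ rad J := by
          have : ‖y₀ + y - x‖ - 1 ≤ (1 - (J : ℝ)) / n := by
            rw [le_div_iff₀ hnR]
            linarith
          simp only [rad]
          linarith
        have h3 : 1 ≤ cntB Xf (rad J) (y₀ + y) := by
          have := single_le_sum (f := fun x => if ‖y₀ + y - x‖ ≤ rad J then (1 : ℝ) else 0)
            (fun x _ => by split_ifs <;> norm_num) hx
          simpa [h2, cntB] using this
        have h4 : 0 ≤ ∑ j ∈ range (J + 1), cntB Xf (rad j) (y₀ + y) :=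
          sum_nonneg fun _ _ => cntB_nonneg _ _ _
        simp only [cost] at hc
        nlinarith
      have hclose : ∀ x ∈ Xn, |‖y - g (x - y₀)‖ - ‖y₀ + y - x‖| ≤ η := by
        intro x hx
        refine (abs_norm_sub_norm_le _ _).trans ?_
        have : y - g (x - y₀) - (y₀ + y - x) = x - y₀ - g (x - y₀) := by abel
        rw [this]
        exact (hg _ (mem_filter.1 hx).2).2
      have hdepth : ∀ x ∈ Xn, n * (1 - ‖y - g (x - y₀)‖) ≤ n * (1 - ‖y₀ + y - x‖) + 1 / 2 := by
        intro x hx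
        have h2 := (abs_le.1 (hclose x hx)).1
        nlinarith
      constructor
      · intro z hz
        obtain ⟨x, hx, rfl⟩ := mem_image.1 (mem_filter.1 hz).1
        linarith [hdepth x hx, hdeep x (mem_filter.1 hx).1]
      · let φ : E n → ℝ := fun z =>
          if ‖y - z‖ ≤ 1 + η then 1 + max 0 (n * (1 - ‖y - z‖)) else 0
        have hφ0 : ∀ z, 0 ≤ φ z := fun z => by
          simp only [φ]
          split_ifs
          · linarith [le_max_left 0 (n * (1 - ‖y - z‖))]
          · exact le_rfl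
        calc _ = ∑ z ∈ Xn.image (fun x => g (x - y₀)), φ z := by rw [SS, sum_filter]
          _ ≤ ∑ x ∈ Xn, φ (g (x - y₀)) := sum_image_le_of_nonneg fun z _ => hφ0 z
          _ ≤ ∑ x ∈ Xn, 2 * ∑ j ∈ range (J + 1),
              if ‖y₀ + y - x‖ ≤ rad j then (1 : ℝ) else 0 := by
              refine sum_le_sum fun x hx => ?_
              simp only [φ]
              split_ifs with h
              · refine le_trans ?_ (count_ge hn J _ ?_ (hdeep x (mem_filter.1 hx).1))
                · gcongr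
                  exact hdepth x hx
                · have h2 := (abs_le.1 (hclose x hx)).1
                  nlinarith
              · exact mul_nonneg (by norm_num) (sum_nonneg fun _ _ => by split_ifs <;> norm_num)
          _ ≤ ∑ x ∈ Xf, 2 * ∑ j ∈ range (J + 1),
              if ‖y₀ + y - x‖ ≤ rad j then (1 : ℝ) else 0 :=
              sum_le_sum_of_subset_of_nonneg (filter_subset _ _) fun x _ _ =>
                mul_nonneg (by norm_num) (sum_nonneg fun _ _ => by split_ifs <;> norm_num)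
          _ = 2 * ∑ j ∈ range (J + 1), cntB Xf (rad j) (y₀ + y) := by
              rw [← mul_sum, sum_comm]
              rfl
          _ ≤ 32 * Θ₀ := by
              have := mul_nonneg hH0.le (cntB_nonneg Xf (rad J) (y₀ + y))
              simp only [cost] at hc
              linarith
    set P := GoodTest η J (32 * Θ₀) (Xn.image (fun x => g (x - y₀))) with hP
    have h2 : ((Y.filter (fun y => ¬ P y)).card : ℝ) * (16 * Θ₀) ≤ 8 * Θ₀ * Y.card := by
      refine le_trans ?_ h1
      calc _ = ∑ y ∈ Y.filter (fun y => ¬ P y), 16 * Θ₀ := by rw [sum_const, nsmul_eq_mul]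
        _ ≤ ∑ y ∈ Y.filter (fun y => ¬ P y), cost y y₀ := by
            refine sum_le_sum fun y hy => ?_
            by_contra h
            exact (mem_filter.1 hy).2 (hgood y (mem_filter.1 hy).1 (not_le.1 h).le)
        _ ≤ _ := sum_le_sum_of_subset_of_nonneg (filter_subset _ _) fun y _ _ => hcost0 y y₀
    have h3 : 2 * ((Y.filter (fun y => ¬ P y)).card : ℝ) ≤ Y.card := by
      have : (2 * ((Y.filter (fun y => ¬ P y)).card : ℝ)) * (8 * Θ₀) ≤ Y.card * (8 * Θ₀) := by
        linarith
      exact le_of_mul_le_mul_right this (by positivity)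
    have h4 : 2 * (Y.filter (fun y => ¬ P y)).card ≤ Y.card := by exact_mod_cast h3
    have h5 := card_filter_add_card_filter_not (s := Y) P
    omega
  · intro x hx h
    exact ⟨g (x - y₀), mem_image_of_mem _ (mem_filter.2 ⟨hx, h⟩), (hg _ h).2⟩

end Vale.Agent.P230
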