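import Vale.Agent.P230.Janson

set_option linter.unusedSectionVars false

namespace Vale.Agent.P230

open Finset

variable {ι : Type*} [Fintype ι] [DecidableEq ι] {C : Type*} [Fintype C] [LinearOrder C]

/-- Total intensity of a set of pool elements. -/
def mass (p : ι → ℝ) (A : Finset ι) : ℝ := ∑ a ∈ A, p a

/-- Normalized weight on a set of pool elements. -/
noncomputable def rr (p : ι → ℝ) (A : Finset ι) (a : ι) : ℝ :=
  if a ∈ A then p a / mass p A else 0

/-- Product distribution on choice functions. -/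
noncomputable def QQ (p : ι → ℝ) (J : C → Finset ι) (c : C → ι) : ℝ := ∏ x, rr p (J x) (c x)

variable {p : ι → ℝ}

theorem mass_pos (h0 : ∀ a, 0 < p a) {A : Finset ι} (hA : A.Nonempty) : 0 < mass p A :=
  sum_pos (fun a _ => h0 a) hA

theorem mass_nonneg (h0 : ∀ a, 0 < p a) (A : Finset ι) : 0 ≤ mass p A :=
  sum_nonneg (fun a _ => (h0 a).le)

theorem rr_nonneg (h0 : ∀ a, 0 < p a) (A : Finset ι) (a : ι) : 0 ≤ rr p A a := by
  unfold rr
  split_ifs
  · exact div_nonneg (h0 a).le (mass_nonneg h0 A)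
  · exact le_rfl

theorem sum_rr (h0 : ∀ a, 0 < p a) {A : Finset ι} (hA : A.Nonempty) : ∑ a, rr p A a = 1 := by
  unfold rr
  rw [← sum_filter, filter_mem_eq_inter, univ_inter, ← sum_div]
  exact div_self (mass_pos h0 hA).ne'

theorem QQ_nonneg (h0 : ∀ a, 0 < p a) (J : C → Finset ι) (c : C → ι) : 0 ≤ QQ p J c :=
  prod_nonneg fun _ _ => rr_nonneg h0 _ _

theorem mem_of_QQ_ne_zero {J : C → Finset ι} {c : C → ι} (h : QQ p J c ≠ 0) (x : C) :
    c x ∈ J x := by
  by_contra hx
  apply h
  apply prod_eq_zero (mem_univ x)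
  simp [rr, hx]

theorem prod_expect (h0 : ∀ a, 0 < p a) {J : C → Finset ι} (hJ : ∀ x, (J x).Nonempty)
    {β : Type*} (M : Finset β) (f : β → C) (hf : Set.InjOn f M) (ψ : β → ι → ℝ) :
    ∑ c : C → ι, QQ p J c * ∏ e ∈ M, ψ e (c (f e)) =
      ∏ e ∈ M, ∑ a, rr p (J (f e)) a * ψ e a := by
  classical
  have h1 : ∀ c : C → ι, QQ p J c * ∏ e ∈ M, ψ e (c (f e)) =
      ∏ x, (rr p (J x) (c x) * ∏ e ∈ M.filter (fun e => f e = x), ψ e (c x)) := by
    intro c
    rw [prod_mul_distrib, QQ, ← prod_fiberwise_of_maps_to (s := M) (t := univ) (g := f)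
      (fun _ _ => mem_univ _)]
    congr 1
    refine prod_congr rfl fun x _ => prod_congr rfl fun e he => ?_
    rw [(mem_filter.1 he).2]
  simp_rw [h1]
  have h2 := prod_univ_sum (fun _ : C => (univ : Finset ι))
    (fun x a => rr p (J x) a * ∏ e ∈ M.filter (fun e => f e = x), ψ e a)
  rw [Fintype.piFinset_univ] at h2
  rw [← h2, ← prod_fiberwise_of_maps_to (s := M) (t := univ) (g := f) (fun _ _ => mem_univ _)]
  refine prod_congr rfl fun x _ => ?_
  rcases (M.filter (fun e => f e = x)).eq_empty_or_nonempty with h | ⟨e, he⟩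
  · rw [h]
    simp [sum_rr h0 (hJ x)]
  · have h3 : M.filter (fun e => f e = x) = {e} := by
      ext e'
      simp only [mem_singleton]
      constructor
      · intro he'
        exact hf (mem_filter.1 he').1 (mem_filter.1 he).1
          ((mem_filter.1 he').2.trans (mem_filter.1 he).2.symm)
      · rintro rfl
        exact he
    rw [h3]
    simp [(mem_filter.1 he).2]

theorem sum_QQ (h0 : ∀ a, 0 < p a) {J : C → Finset ι} (hJ : ∀ x, (J x).Nonempty) :
    ∑ c : C → ι, QQ p J c = 1 := by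
  simpa using prod_expect h0 hJ (∅ : Finset C) id (by simp) (fun _ _ => 0)

theorem exists_thin (J : C → Finset ι) (S : Finset C) (c : C → ι) :
    ∃ A ⊆ S, (∀ x' ∈ A, ∀ x ∈ A, x' < x → c x' ∉ J x) ∧
      ∀ x ∈ S, x ∈ A ∨ ∃ x' ∈ A, c x' ∈ J x := by
  induction S using Finset.induction_on_max with
  | empty => exact ⟨∅, subset_rfl, by simp, by simp⟩
  | insert m S hm ih =>
    obtain ⟨A, hA, h1, h2⟩ := ih
    by_cases h : ∃ x' ∈ A, c x' ∈ J m
    · refine ⟨A, hA.trans (subset_insert _ _), h1, fun x hx => ?_⟩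
      rcases mem_insert.1 hx with rfl | hx
      · exact Or.inr h
      · exact h2 x hx
    · refine ⟨insert m A, insert_subset_insert _ hA, ?_, fun x hx => ?_⟩
      · intro x' hx' x hx hlt
        rcases mem_insert.1 hx' with rfl | hx2
        · rcases mem_insert.1 hx with rfl | hx3
          · exact absurd hlt (lt_irrefl _)
          · exact absurd hlt (hm x (hA hx3)).not_gt
        · rcases mem_insert.1 hx with rfl | hx3
          · exact fun hc => h ⟨x', hx2, hc⟩
          · exact h1 x' hx2 x hx3 hlt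
      · rcases mem_insert.1 hx with rfl | hx
        · exact Or.inl (mem_insert_self _ _)
        · rcases h2 x hx with h3 | ⟨x', hx', h3⟩
          · exact Or.inl (mem_insert_of_mem h3)
          · exact Or.inr ⟨x', mem_insert_of_mem hx', h3⟩

/-- The greedily thinned set of centers. -/
noncomputable def thin (J : C → Finset ι) (S : Finset C) (c : C → ι) : Finset C :=
  Classical.choose (exists_thin J S c)

/-- The witness set. -/
noncomputable def wit (J : C → Finset ι) (S : Finset C) (c : C → ι) : Finset ι :=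
  (thin J S c).image c

theorem thin_subset (J : C → Finset ι) (S : Finset C) (c : C → ι) : thin J S c ⊆ S :=
  (Classical.choose_spec (exists_thin J S c)).1

theorem thin_tri (J : C → Finset ι) (S : Finset C) (c : C → ι) :
    ∀ x' ∈ thin J S c, ∀ x ∈ thin J S c, x' < x → c x' ∉ J x :=
  (Classical.choose_spec (exists_thin J S c)).2.1

theorem wit_cover {J : C → Finset ι} (S : Finset C) {c : C → ι} (hc : ∀ x, c x ∈ J x) :
    ∀ x ∈ S, ∃ a ∈ wit J S c, a ∈ J x := by
  intro x hx
  rcases (Classical.choose_spec (exists_thin J S c)).2.2 x hx with h | ⟨x', hx', h⟩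
  · exact ⟨c x, mem_image_of_mem _ h, hc x⟩
  · exact ⟨c x', mem_image_of_mem _ hx', h⟩

theorem card_wit_le (J : C → Finset ι) (S : Finset C) (c : C → ι) :
    (wit J S c).card ≤ S.card :=
  card_image_le.trans (card_le_card (thin_subset J S c))

theorem thin_injOn {J : C → Finset ι} (S : Finset C) {c : C → ι} (hc : ∀ x, c x ∈ J x) :
    Set.InjOn c (thin J S c) := by
  intro x hx y hy hxy
  rcases lt_trichotomy x y with h | h | h
  · exact absurd (hxy ▸ hc y) (thin_tri J S c x hx y hy h)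
  · exact h
  · exact absurd (hxy ▸ hc x) (thin_tri J S c y hy x hx h)

theorem tri_unique {J : C → Finset ι} {T : Finset C} {c d : C → ι}
    (hc : ∀ x, c x ∈ J x) (hci : Set.InjOn c T)
    (hd : ∀ x' ∈ T, ∀ x ∈ T, x' < x → d x' ∉ J x)
    (him : ∀ x ∈ T, ∃ x' ∈ T, d x' = c x) : ∀ x ∈ T, c x = d x := by
  by_contra hcon
  push Not at hcon
  have hne : (T.filter (fun x => c x ≠ d x)).Nonempty := by
    obtain ⟨x, hx, h⟩ := hcon
    exact ⟨x, mem_filter.2 ⟨hx, h⟩⟩
  obtain ⟨x, hx, hmax⟩ := exists_max_image _ id hne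
  obtain ⟨hxT, hxne⟩ := mem_filter.1 hx
  obtain ⟨x', hx', h⟩ := him x hxT
  rcases lt_trichotomy x' x with h1 | h1 | h1
  · exact hd x' hx' x hxT h1 (h ▸ hc x)
  · subst h1; exact hxne h.symm
  · by_cases h2 : c x' = d x'
    · exact h1.ne (hci hxT hx' (h.symm.trans h2.symm))
    · exact absurd (hmax x' (mem_filter.2 ⟨hx', h2⟩)) (not_le.2 h1)

theorem spread (h0 : ∀ a, 0 < p a) {J : C → Finset ι} (hJ : ∀ x, (J x).Nonempty) (S : Finset C)
    (I : Finset ι) :
    ∑ c : C → ι, QQ p J c * (if I ⊆ wit J S c then 1 else 0) ≤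
      2 ^ S.card * (∏ x ∈ S, max 1 (1 / mass p (J x))) * ∏ a ∈ I, p a := by
  classical
  set B := ∏ x ∈ S, max 1 (1 / mass p (J x)) with hB
  have hPI : 0 ≤ ∏ a ∈ I, p a := prod_nonneg fun a _ => (h0 a).le
  have hB1 : 0 ≤ B := prod_nonneg fun x _ => le_trans zero_le_one (le_max_left _ _)
  let τ : (C → ι) → Finset C := fun c => (thin J S c).filter (fun x => c x ∈ I)
  let G : Finset C → (C → ι) → Prop := fun T c => QQ p J c ≠ 0 ∧ I ⊆ wit J S c ∧ τ c = T
  have h1 : ∀ c : C → ι, QQ p J c * (if I ⊆ wit J S c then 1 else 0) ≤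
      ∑ T ∈ S.powerset, if G T c then QQ p J c else 0 := by
    intro c
    by_cases hQ : QQ p J c = 0
    · simp [hQ]
    by_cases hI : I ⊆ wit J S c
    · have hmem : τ c ∈ S.powerset :=
        mem_powerset.2 ((filter_subset _ _).trans (thin_subset J S c))
      refine le_trans ?_ (single_le_sum (f := fun T => if G T c then QQ p J c else 0)
        (fun T _ => by split_ifs; exacts [QQ_nonneg h0 J c, le_rfl]) hmem)
      have : G (τ c) c := ⟨hQ, hI, rfl⟩
      simp [hI, this]
    · rw [if_neg hI, mul_zero]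
      exact sum_nonneg fun T _ => by split_ifs; exacts [QQ_nonneg h0 J c, le_rfl]
  have h2 : ∀ T ∈ S.powerset, ∑ c : C → ι, (if G T c then QQ p J c else 0) ≤
      B * ∏ a ∈ I, p a := by
    intro T hT
    by_cases hex : ∃ d, G T d
    · obtain ⟨d, hdQ, hdI, hdT⟩ := hex
      have hdJ := mem_of_QQ_ne_zero hdQ
      have hTd : T ⊆ thin J S d := hdT ▸ filter_subset _ _
      have himd : T.image d = I := by
        ext a
        simp only [mem_image]
        constructor
        · rintro ⟨x, hx, rfl⟩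
          rw [← hdT] at hx
          exact (mem_filter.1 hx).2
        · intro ha
          obtain ⟨x, hx, rfl⟩ := mem_image.1 (hdI ha)
          exact ⟨x, hdT ▸ mem_filter.2 ⟨hx, ha⟩, rfl⟩
      have h3 : ∀ c : C → ι, (if G T c then QQ p J c else 0) ≤
          QQ p J c * ∏ x ∈ T, (if c x = d x then (1 : ℝ) else 0) := by
        intro c
        split_ifs with hG
        · obtain ⟨hcQ, hcI, hcT⟩ := hG
          have hcJ := mem_of_QQ_ne_zero hcQ
          have hTc : T ⊆ thin J S c := hcT ▸ filter_subset _ _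
          have hagree := tri_unique (T := T) hcJ ((thin_injOn S hcJ).mono (coe_subset.2 hTc))
            (fun x' hx' x hx => thin_tri J S d x' (hTd hx') x (hTd hx))
            (fun x hx => by
              have : c x ∈ I := by
                rw [← hcT] at hx
                exact (mem_filter.1 hx).2
              rw [← himd] at this
              exact mem_image.1 this)
          rw [prod_congr rfl (fun x hx => if_pos (hagree x hx))]
          simp
        · exact mul_nonneg (QQ_nonneg h0 J c) (prod_nonneg fun x _ => by split_ifs <;> norm_num)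
      refine (sum_le_sum fun c _ => h3 c).trans ?_
      have h4 := prod_expect h0 hJ T id (Set.injOn_id _) (fun x a => if a = d x then (1 : ℝ) else 0)
      simp only [id] at h4
      rw [h4]
      have h5 : ∀ x ∈ T, ∑ a, rr p (J x) a * (if a = d x then (1 : ℝ) else 0) =
          p (d x) * (1 / mass p (J x)) := by
        intro x _
        simp [rr, hdJ x, div_eq_mul_inv]
      rw [prod_congr rfl h5, prod_mul_distrib, ← himd,
        prod_image ((thin_injOn S hdJ).mono (coe_subset.2 hTd)), mul_comm]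
      apply mul_le_mul_of_nonneg_right _ (prod_nonneg fun x _ => (h0 _).le)
      calc ∏ x ∈ T, 1 / mass p (J x) ≤ ∏ x ∈ T, max 1 (1 / mass p (J x)) :=
            prod_le_prod (fun x _ => by have := mass_nonneg h0 (J x); positivity)
              fun x _ => le_max_right _ _
        _ ≤ B := prod_le_prod_of_subset_of_one_le (mem_powerset.1 hT)
            (fun x _ => le_trans zero_le_one (le_max_left _ _)) fun x _ _ => le_max_left _ _
    · push Not at hex
      rw [sum_eq_zero fun c _ => if_neg (hex c)]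
      positivity
  calc _ ≤ ∑ c : C → ι, ∑ T ∈ S.powerset, if G T c then QQ p J c else 0 :=
        sum_le_sum fun c _ => h1 c
    _ = ∑ T ∈ S.powerset, ∑ c : C → ι, if G T c then QQ p J c else 0 := sum_comm
    _ ≤ ∑ T ∈ S.powerset, B * ∏ a ∈ I, p a := sum_le_sum h2
    _ = _ := by rw [sum_const, card_powerset, nsmul_eq_mul]; push_cast; ring

/-- The overlap of two witness systems. -/
noncomputable def overlap (p : ι → ℝ) (J J' : C → Finset ι) (S S' : Finset C) : ℝ :=
  ∑ c : C → ι, QQ p J c * ∑ c' : C → ι,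
    if (wit J' S' c' ∩ wit J S c).Nonempty then
      QQ p J' c' / ∏ a ∈ wit J' S' c' ∩ wit J S c, p a else 0

theorem overlap_near (h0 : ∀ a, 0 < p a) {J J' : C → Finset ι} (hJ : ∀ x, (J x).Nonempty)
    (hJ' : ∀ x, (J' x).Nonempty) (S S' : Finset C) :
    overlap p J J' S S' ≤ 2 ^ S.card * (2 ^ S'.card * ∏ x ∈ S', max 1 (1 / mass p (J' x))) := by
  set B := 2 ^ S'.card * ∏ x ∈ S', max 1 (1 / mass p (J' x)) with hB
  have hB0 : 0 ≤ B := by
    have : 0 ≤ ∏ x ∈ S', max 1 (1 / mass p (J' x)) :=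
      prod_nonneg fun x _ => le_trans zero_le_one (le_max_left _ _)
    positivity
  have hP : ∀ U : Finset ι, 0 < ∏ a ∈ U, p a := fun U => prod_pos fun a _ => h0 a
  have h1 : ∀ V : Finset ι, V.card ≤ S.card → ∑ c' : C → ι,
      (if (wit J' S' c' ∩ V).Nonempty then QQ p J' c' / ∏ a ∈ wit J' S' c' ∩ V, p a else 0) ≤
      2 ^ S.card * B := by
    intro V hV
    calc _ ≤ ∑ c' : C → ι, ∑ I ∈ V.powerset,
          QQ p J' c' * (if I ⊆ wit J' S' c' then 1 else 0) / ∏ a ∈ I, p a := by
          refine sum_le_sum fun c' _ => ?_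
          have hnn : ∀ I ∈ V.powerset,
              0 ≤ QQ p J' c' * (if I ⊆ wit J' S' c' then 1 else 0) / ∏ a ∈ I, p a := fun I _ =>
            div_nonneg (mul_nonneg (QQ_nonneg h0 _ _) (by split_ifs <;> norm_num)) (hP I).le
          split_ifs
          · refine le_trans ?_ (single_le_sum hnn (mem_powerset.2
              (inter_subset_right (s₁ := wit J' S' c') (s₂ := V))))
            rw [if_pos inter_subset_left, mul_one]
          · exact sum_nonneg hnn
      _ = ∑ I ∈ V.powerset, (∑ c' : C → ι,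
          QQ p J' c' * (if I ⊆ wit J' S' c' then 1 else 0)) / ∏ a ∈ I, p a := by
          rw [sum_comm]
          simp_rw [sum_div]
      _ ≤ ∑ I ∈ V.powerset, B := by
          refine sum_le_sum fun I _ => ?_
          rw [div_le_iff₀ (hP I)]
          exact spread h0 hJ' S' I
      _ = 2 ^ V.card * B := by rw [sum_const, card_powerset, nsmul_eq_mul]; push_cast; ring
      _ ≤ 2 ^ S.card * B :=
          mul_le_mul_of_nonneg_right (pow_le_pow_right₀ (by norm_num) hV) hB0
  unfold overlap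
  calc _ ≤ ∑ c : C → ι, QQ p J c * (2 ^ S.card * B) :=
        sum_le_sum fun c _ => mul_le_mul_of_nonneg_left (h1 _ (card_wit_le J S c))
          (QQ_nonneg h0 J c)
    _ = _ := by rw [← sum_mul, sum_QQ h0 hJ, one_mul]

theorem overlap_far (h0 : ∀ a, 0 < p a) {J J' : C → Finset ι} (hJ : ∀ x, (J x).Nonempty)
    (hJ' : ∀ x, (J' x).Nonempty) (S S' : Finset C) :
    overlap p J J' S S' ≤ (∏ e ∈ S ×ˢ S',
      (1 + mass p (J e.1 ∩ J' e.2) / (mass p (J e.1) * mass p (J' e.2)))) - 1 := by
  classical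
  let ε : C × C → ℝ := fun e => mass p (J e.1 ∩ J' e.2) / (mass p (J e.1) * mass p (J' e.2))
  have hε : ∀ e, 0 ≤ ε e := fun e =>
    div_nonneg (mass_nonneg h0 _) (mul_nonneg (mass_nonneg h0 _) (mass_nonneg h0 _))
  let 𝓜 : Finset (Finset (C × C)) := (S ×ˢ S').powerset.filter
    (fun M => M.Nonempty ∧ Set.InjOn Prod.fst (M : Set (C × C)) ∧
      Set.InjOn Prod.snd (M : Set (C × C)))
  let φ : ι → ι → ℝ := fun a a' => if a' = a then 1 / p a else 0
  have hφ : ∀ a a', 0 ≤ φ a a' := fun a a' => by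
    simp only [φ]; split_ifs; exacts [(one_div_pos.2 (h0 a)).le, le_rfl]
  have h1 : ∀ c c' : C → ι, (if (wit J' S' c' ∩ wit J S c).Nonempty then
      QQ p J' c' / ∏ a ∈ wit J' S' c' ∩ wit J S c, p a else 0) ≤
      ∑ M ∈ 𝓜, QQ p J' c' * ∏ e ∈ M, φ (c e.1) (c' e.2) := by
    intro c c'
    have hnn : ∀ M ∈ 𝓜, 0 ≤ QQ p J' c' * ∏ e ∈ M, φ (c e.1) (c' e.2) := fun M _ =>
      mul_nonneg (QQ_nonneg h0 _ _) (prod_nonneg fun e _ => hφ _ _)
    split_ifs with hne
    · set I := wit J' S' c' ∩ wit J S c with hI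
      have hx : ∀ a ∈ I, ∃ e : C × C, e.1 ∈ S ∧ e.2 ∈ S' ∧ c e.1 = a ∧ c' e.2 = a := by
        intro a ha
        obtain ⟨x', hx', h'⟩ := mem_image.1 (mem_inter.1 ha).1
        obtain ⟨x, hx, h⟩ := mem_image.1 (mem_inter.1 ha).2
        exact ⟨(x, x'), thin_subset _ _ _ hx, thin_subset _ _ _ hx', h, h'⟩
      obtain ⟨a0, ha0⟩ := hne
      obtain ⟨e0, -⟩ := hx a0 ha0
      have : Nonempty (C × C) := ⟨e0⟩
      choose! g hg using hx
      have hginj : Set.InjOn g I := fun a ha b hb hab => by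
        rw [← (hg a ha).2.2.1, ← (hg b hb).2.2.1, hab]
      have hM : I.image g ∈ 𝓜 := by
        refine mem_filter.2 ⟨mem_powerset.2 ?_, ⟨g a0, mem_image_of_mem _ ha0⟩, ?_, ?_⟩
        · intro e he
          obtain ⟨a, ha, rfl⟩ := mem_image.1 he
          exact mem_product.2 ⟨(hg a ha).1, (hg a ha).2.1⟩
        · intro e he e' he' h
          obtain ⟨a, ha, rfl⟩ := mem_image.1 (mem_coe.1 he)
          obtain ⟨b, hb, rfl⟩ := mem_image.1 (mem_coe.1 he')
          have : a = b := by rw [← (hg a ha).2.2.1, ← (hg b hb).2.2.1, h]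
          rw [this]
        · intro e he e' he' h
          obtain ⟨a, ha, rfl⟩ := mem_image.1 (mem_coe.1 he)
          obtain ⟨b, hb, rfl⟩ := mem_image.1 (mem_coe.1 he')
          have : a = b := by rw [← (hg a ha).2.2.2, ← (hg b hb).2.2.2, h]
          rw [this]
      refine le_trans (le_of_eq ?_) (single_le_sum hnn hM)
      rw [prod_image hginj, div_eq_mul_inv, ← prod_inv_distrib]
      congr 1
      refine prod_congr rfl fun a ha => ?_
      simp [φ, (hg a ha).2.2.1, (hg a ha).2.2.2]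
    · exact sum_nonneg hnn
  have h2 : ∀ M ∈ 𝓜, ∑ c : C → ι, QQ p J c *
      ∑ c' : C → ι, QQ p J' c' * ∏ e ∈ M, φ (c e.1) (c' e.2) = ∏ e ∈ M, ε e := by
    intro M hM
    obtain ⟨-, -, hM1, hM2⟩ := mem_filter.1 hM
    have h3 : ∀ c : C → ι, ∑ c' : C → ι, QQ p J' c' * ∏ e ∈ M, φ (c e.1) (c' e.2) =
        ∏ e ∈ M, rr p (J' e.2) (c e.1) * (1 / p (c e.1)) := by
      intro c
      rw [prod_expect h0 hJ' M Prod.snd hM2 (fun e a' => φ (c e.1) a')]
      refine prod_congr rfl fun e _ => ?_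
      simp [φ]
    simp_rw [h3]
    rw [prod_expect h0 hJ M Prod.fst hM1 (fun e a => rr p (J' e.2) a * (1 / p a))]
    refine prod_congr rfl fun e _ => ?_
    simp only [ε, mass]
    rw [sum_div, ← filter_mem_eq_inter, ← sum_subset (subset_univ (J e.1)), sum_filter]
    · refine sum_congr rfl fun a ha => ?_
      have := (h0 a).ne'
      by_cases h : a ∈ J' e.2
      · simp only [rr, ha, h, if_true, mass]
        field_simp
      · simp [rr, h]
    · intro a _ ha
      simp [rr, ha]
  unfold overlap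
  calc _ ≤ ∑ c : C → ι, QQ p J c * ∑ c' : C → ι,
        ∑ M ∈ 𝓜, QQ p J' c' * ∏ e ∈ M, φ (c e.1) (c' e.2) :=
        sum_le_sum fun c _ => mul_le_mul_of_nonneg_left (sum_le_sum fun c' _ => h1 c c')
          (QQ_nonneg h0 J c)
    _ = ∑ M ∈ 𝓜, ∑ c : C → ι, QQ p J c *
        ∑ c' : C → ι, QQ p J' c' * ∏ e ∈ M, φ (c e.1) (c' e.2) := by
        rw [sum_comm]
        refine sum_congr rfl fun c _ => ?_
        rw [sum_comm, mul_sum]
    _ = ∑ M ∈ 𝓜, ∏ e ∈ M, ε e := sum_congr rfl h2
    _ ≤ ∑ M ∈ (S ×ˢ S').powerset.erase ∅, ∏ e ∈ M, ε e := by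
        refine sum_le_sum_of_subset_of_nonneg ?_ fun M _ _ => prod_nonneg fun e _ => hε e
        intro M hM
        obtain ⟨h3, h4, -⟩ := mem_filter.1 hM
        exact mem_erase.2 ⟨h4.ne_empty, h3⟩
    _ = _ := by
        rw [prod_one_add, ← add_sum_erase _ _ (empty_mem_powerset _)]
        simp [ε]

/-- Probability that no test has all its centers cut. -/
theorem prob_no_witness (h0 : ∀ a, 0 < p a) (h1 : ∀ a, p a ≤ 1) {Y : Type*} [Fintype Y]
    [Nonempty Y] (J : Y → C → Finset ι) (hJ : ∀ y x, (J y x).Nonempty) (S : Y → Finset C)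
    {Δ : ℝ} (hΔ0 : 0 < Δ)
    (hΔ : ∀ y, ∑ y', overlap p (J y) (J y') (S y) (S y') ≤ Fintype.card Y * Δ)
    (Bad : Finset ι → Prop) [DecidablePred Bad]
    (hBad : ∀ ω, Bad ω → ∀ y, ¬ ∀ x ∈ S y, ∃ a ∈ ω, a ∈ J y x) :
    ∑ ω, wt p ω * (if Bad ω then 1 else 0) ≤ Real.exp (-(1 / (2 * Δ))) := by
  classical
  have hY : (0 : ℝ) < Fintype.card Y := by exact_mod_cast Fintype.card_pos
  refine janson (κ := Y × (C → ι)) h0 h1 (q := fun i => QQ p (J i.1) i.2 / Fintype.card Y)
    (fun i => div_nonneg (QQ_nonneg h0 _ _) hY.le) ?_ (fun i => wit (J i.1) (S i.1) i.2) hΔ0 ?_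
    Bad ?_
  · rw [Fintype.sum_prod_type]
    simp_rw [← sum_div, sum_QQ h0 (hJ _)]
    simp [hY.ne']
  · rw [Fintype.sum_prod_type]
    have h2 : ∀ y, ∑ c : C → ι, QQ p (J y) c / Fintype.card Y * ∑ j : Y × (C → ι),
        (if (wit (J j.1) (S j.1) j.2 ∩ wit (J y) (S y) c).Nonempty then
          QQ p (J j.1) j.2 / Fintype.card Y / ∏ a ∈ wit (J j.1) (S j.1) j.2 ∩ wit (J y) (S y) c, p a
          else 0) =
        (∑ y', overlap p (J y) (J y') (S y) (S y')) / (Fintype.card Y * Fintype.card Y) := by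
      intro y
      unfold overlap
      rw [sum_comm, sum_div]
      refine sum_congr rfl fun c _ => ?_
      rw [Fintype.sum_prod_type, ← mul_sum, mul_div_mul_comm, sum_div]
      congr 1
      refine sum_congr rfl fun y' _ => ?_
      rw [sum_div]
      refine sum_congr rfl fun c' _ => ?_
      split_ifs
      · ring
      · simp
    simp_rw [h2]
    calc _ ≤ ∑ _y : Y, Δ / Fintype.card Y := by
          refine sum_le_sum fun y _ => ?_
          rw [div_le_div_iff₀ (by positivity) hY]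
          have := mul_le_mul_of_nonneg_right (hΔ y) hY.le
          linarith
      _ = Δ := by simp; field_simp
  · intro ω hω i hi hsub
    have hQ : QQ p (J i.1) i.2 ≠ 0 := fun h => hi (by simp [h])
    apply hBad ω hω i.1
    intro x hx
    obtain ⟨a, ha, ha'⟩ := wit_cover (S i.1) (mem_of_QQ_ne_zero hQ) x hx
    exact ⟨a, hsub ha, ha'⟩

end Vale.Agent.P230
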